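import Vale.Agent.P032.Words6.H704.K6Tab
import Vale.Agent.P032.S5.H767.RawT
import Vale.Agent.P032.S5.H450.Sign

/-!
# P032: a six-coloured centre with a clean circle: generic times

`P u = T (pt z u)`.  Every palette of the circle contains a broken pair; at a generic time (the six
palettes at `u, u + 1, .., u + 5` are locally constant) neighbouring palettes are disjoint and
antipodal ones have at most four colours together, so all selections of broken pairs have the same
value of the invariant of `tab6`.  This value is locally constant at generic times and changes under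
`u ↦ u + 1`.
-/

open Set Filter Topology Metric

noncomputable section

namespace Vale.Agent.P032.Words6.H704

open Vale.Agent.P032.Six Vale.Agent.P032.S5.H767

variable {U : Fin 6 → Set ℂ} {T : ℂ → Set (Fin 6)}

/-- a six-coloured centre with a clean circle -/
structure Six6 (U : Fin 6 → Set ℂ) (T : ℂ → Set (Fin 6)) (z : ℂ) : Prop where
  irr : Irr U T
  all : ∀ i, i ∈ T z
  clean : ∀ y, dist y z = 1 → (T y).ncard ≤ 3

variable {z : ℂ}

/-- generic times -/
def Gn (T : ℂ → Set (Fin 6)) (z : ℂ) (u : ℝ) : Prop :=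
  ∀ k : Fin 6, ∀ᶠ v in 𝓝 (u + (k.val : ℝ)), T (pt z v) = T (pt z (u + (k.val : ℝ)))

/-- selections of broken pairs -/
def Sel (T : ℂ → Set (Fin 6)) (z : ℂ) (u : ℝ) (a : Fin 6 → Set (Fin 6)) : Prop :=
  ∀ k : Fin 6, (∃ x y, MC T z x y ∧ a k = {x, y}) ∧ a k ⊆ T (pt z (u + (k.val : ℝ)))

theorem Six6.two_le (C : Six6 U T z) {y : ℂ} (hy : dist y z = 1) : 2 ≤ (T y).ncard := by
  by_contra hcon
  obtain ⟨i, hi⟩ := C.irr.ne y
  have h2 : T y ⊆ {i} := fun m hm =>
    (Set.ncard_le_one (Set.toFinite _)).1 (by omega) m hm i hi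
  exact C.irr.mx.notMem' (C.irr.mem_of_single h2) hy (C.irr.sub z (C.all i))

/-- every palette of the circle contains a broken pair -/
theorem Six6.sub_pair (C : Six6 U T z) {q : ℂ} (hq : dist q z = 1) :
    ∃ x y, MC T z x y ∧ ({x, y} : Set (Fin 6)) ⊆ T q := by
  by_contra hcon
  push Not at hcon
  have hcard : ∀ y, dist y z = 1 → T y ⊆ T q → (T y).ncard = 3 := by
    intro y hy hsub
    have h2 := C.two_le hy
    have h3 := C.clean y hy
    by_contra h4
    have h5 : (T y).ncard = 2 := by omega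
    obtain ⟨a, b, hab, hTy⟩ := Set.ncard_eq_two.1 h5
    exact hcon a b ⟨hab, y, hy, hTy⟩ (hTy ▸ hsub)
  have h3q := hcard q hq subset_rfl
  -- open and closed
  have hA : ∀ u : ℝ, T q ⊆ T (pt z u) ↔ T (pt z u) ⊆ T q := by
    intro u
    constructor
    · intro h1
      rw [Set.eq_of_subset_of_ncard_le h1 (by rw [h3q]; exact C.clean _ (dist_pt z u))
        (Set.toFinite _)]
    · intro h1
      rw [Set.eq_of_subset_of_ncard_le h1 (by rw [h3q, hcard _ (dist_pt z u) h1]) (Set.toFinite _)]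
  have hclosed : IsClosed {u : ℝ | T q ⊆ T (pt z u)} := by
    have h1 : {u : ℝ | T q ⊆ T (pt z u)} = ⋂ i ∈ T q, {u : ℝ | i ∈ T (pt z u)} := by
      ext u
      simp only [mem_ofPred_eq, mem_iInter]
      exact Iff.rfl
    rw [h1]
    exact isClosed_biInter fun i _ => (C.irr.closed i).preimage (continuous_pt z)
  have hopen : IsOpen {u : ℝ | T q ⊆ T (pt z u)} := by
    rw [isOpen_iff_mem_nhds]
    intro u hu
    have hu : T q ⊆ T (pt z u) := hu
    have h1 : ∀ᶠ v in 𝓝 u, T (pt z v) ⊆ T (pt z u) :=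
      ((continuous_pt z).tendsto u).eventually (C.irr.nhd (pt z u))
    filter_upwards [h1] with v hv
    show T q ⊆ T (pt z v)
    rw [hA]
    exact hv.trans ((hA u).1 hu)
  obtain ⟨θ, hθ⟩ := exists_cis (u := q - z) (by rw [← dist_eq_norm]; exact hq)
  have hpt : pt z (θ / (Real.pi / 3)) = q := by
    unfold pt
    rw [div_mul_cancel₀ _ (by positivity), ← hθ]; ring
  have huniv : {u : ℝ | T q ⊆ T (pt z u)} = univ := by
    refine IsClopen.eq_univ ⟨hclosed, hopen⟩ ⟨θ / (Real.pi / 3), ?_⟩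
    show T q ⊆ T (pt z _)
    rw [hpt]
  have h1 : T q ⊆ T (pt z (θ / (Real.pi / 3) + 1)) := by
    have : θ / (Real.pi / 3) + 1 ∈ {u : ℝ | T q ⊆ T (pt z u)} := by rw [huniv]; exact mem_univ _
    exact this
  refine C.irr.not_sub (x := pt z (θ / (Real.pi / 3) + 1)) (y := q) ?_
    (C.clean _ (dist_pt z _)) h1
  rw [← hpt]
  exact dist_pt_one z _

theorem Six6.exists_sel (C : Six6 U T z) (u : ℝ) : ∃ a, Sel T z u a := by
  have h1 : ∀ k : Fin 6, ∃ s : Set (Fin 6), (∃ x y, MC T z x y ∧ s = {x, y}) ∧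
      s ⊆ T (pt z (u + (k.val : ℝ))) := by
    intro k
    obtain ⟨x, y, hxy, hsub⟩ := C.sub_pair (dist_pt z (u + (k.val : ℝ)))
    exact ⟨{x, y}, ⟨x, y, hxy, rfl⟩, hsub⟩
  choose a ha using h1
  exact ⟨a, ha⟩

/-- neighbouring palettes at a time where the first one is locally constant -/
theorem Six6.disj (C : Six6 U T z) {u : ℝ} (hu : ∀ᶠ v in 𝓝 u, T (pt z v) = T (pt z u)) :
    Disjoint (T (pt z u)) (T (pt z (u + 1))) := by
  rw [Set.disjoint_left]
  intro i h1 h2
  have h3 : ∀ᶠ v in 𝓝 u, i ∈ T (pt z v) := hu.mono fun v hv => by rw [hv]; exact h1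
  rcases C.irr.mx.partner_line (dist_pt z u) ((ev_circle z h3).mono fun q hq => C.irr.sub q hq)
    (dist_pt_one z u) (C.irr.sub _ h2) with h4 | h4
  · obtain ⟨k1, -⟩ := S5.H767.tri (dist_pt z u) (dist_pt z (u + 1))
    have := dist_pt z (u + 1)
    rw [h4, dist_self] at this
    exact zero_ne_one this
  · obtain ⟨-, k2⟩ := S5.H767.tri (dist_pt z u) (dist_pt z (u + 1))
    exact k2 (by rw [← h4]; ring)

theorem pt_fin (z : ℂ) (u : ℝ) (k : Fin 6) :
    pt z (u + ((k + 1).val : ℝ)) = pt z (u + (k.val : ℝ) + 1) := by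
  by_cases hk : k = 5
  · subst hk
    have h1 : ((5 : Fin 6) + 1).val = 0 := rfl
    have h2 : (5 : Fin 6).val = 5 := rfl
    rw [h1, h2, ← pt_six]
    congr 1
    push_cast
    ring
  · have h1 : (k + 1).val = k.val + 1 := by
      have : k.val ≠ 5 := fun h => hk (Fin.ext h)
      have h6 := k.isLt
      rw [Fin.val_add_one_of_lt]
      rw [Fin.lt_def]
      show k.val < 5
      omega
    rw [h1]
    congr 1
    push_cast
    ring

theorem pt_fin3 (z : ℂ) (u : ℝ) (k : Fin 6) :
    pt z (u + ((k + 3).val : ℝ)) = 2 * z - pt z (u + (k.val : ℝ)) := by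
  have e : k + 3 = k + 1 + 1 + 1 := by
    rw [add_assoc, add_assoc]; rfl
  have h1 : pt z (u + ((k + 1 + 1).val : ℝ) + 1) = pt z (u + 1 + ((k + 1 + 1).val : ℝ)) := by
    congr 1; ring
  have h2 : pt z (u + 1 + ((k + 1).val : ℝ) + 1) = pt z (u + 1 + 1 + ((k + 1).val : ℝ)) := by
    congr 1; ring
  rw [e, pt_fin, h1, pt_fin, h2, pt_fin, ← pt_three]
  congr 1; ring

theorem Gn.shift {u : ℝ} (hu : Gn T z u) : Gn T z (u + 1) := by
  intro k
  have h1 := hu (k + 1)
  have e2 : T (pt z (u + 1 + (k.val : ℝ))) = T (pt z (u + ((k + 1).val : ℝ))) := by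
    rw [pt_fin]; congr 2; ring
  rw [e2]
  by_cases hk : k = 5
  · subst hk
    have h3 : ((5 : Fin 6) + 1).val = 0 := rfl
    have h4 : (5 : Fin 6).val = 5 := rfl
    rw [h3] at h1 ⊢
    rw [h4]
    have hc : Tendsto (fun v : ℝ => v - 6) (𝓝 (u + 1 + ((5 : ℕ) : ℝ))) (𝓝 (u + ((0 : ℕ) : ℝ))) := by
      have : Continuous fun v : ℝ => v - 6 := by fun_prop
      have h5 := this.tendsto (u + 1 + ((5 : ℕ) : ℝ))
      have e : u + 1 + ((5 : ℕ) : ℝ) - 6 = u + ((0 : ℕ) : ℝ) := by push_cast; ring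
      rwa [e] at h5
    filter_upwards [hc.eventually h1] with v hv
    rw [← hv, ← pt_six z (v - 6)]
    congr 2; ring
  · have h6 : (k + 1).val = k.val + 1 := by
      have : k.val ≠ 5 := fun h => hk (Fin.ext h)
      have h6 := k.isLt
      rw [Fin.val_add_one_of_lt]
      rw [Fin.lt_def]
      show k.val < 5
      omega
    rw [h6] at h1 ⊢
    have e : u + 1 + (k.val : ℝ) = u + ((k.val + 1 : ℕ) : ℝ) := by push_cast; ring
    rw [e]
    exact h1

theorem gn_open : IsOpen {u : ℝ | Gn T z u} := by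
  rw [isOpen_iff_mem_nhds]
  intro u hu
  have hu : Gn T z u := hu
  have h1 : ∀ᶠ v in 𝓝 u, ∀ k : Fin 6, ∀ᶠ v' in 𝓝 (v + (k.val : ℝ)),
      T (pt z v') = T (pt z (v + (k.val : ℝ))) := by
    rw [eventually_all]
    intro k
    have hc : Tendsto (fun v : ℝ => v + (k.val : ℝ)) (𝓝 u) (𝓝 (u + (k.val : ℝ))) := by
      have : Continuous fun v : ℝ => v + (k.val : ℝ) := by fun_prop
      exact this.tendsto u
    have h2 := hc.eventually (eventually_eventually_nhds.2 (hu k))
    have h3 := hc.eventually (hu k)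
    filter_upwards [h2, h3] with v hv hv'
    rw [hv']
    exact hv
  exact h1

theorem Six6.gn_dense (C : Six6 U T z) : Dense {u : ℝ | Gn T z u} := by
  intro u
  rw [mem_closure_iff_nhds]
  intro N hN
  obtain ⟨w, hwN, hwo, huw⟩ := _root_.mem_nhds_iff.1 hN
  set f : ℝ → ℕ := fun v => ∑ k : Fin 6, (T (pt z (v + (k.val : ℝ)))).ncard with hf
  obtain ⟨_, ⟨v, hv, rfl⟩, hmin⟩ :=
    WellFounded.has_min (r := ((· < ·) : ℕ → ℕ → Prop)) wellFounded_lt (f '' w) ⟨_, u, huw, rfl⟩
  refine ⟨v, hwN hv, ?_⟩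
  have h1 : ∀ᶠ v' in 𝓝 v, ∀ k : Fin 6, T (pt z (v' + (k.val : ℝ))) ⊆
      T (pt z (v + (k.val : ℝ))) := by
    rw [eventually_all]
    intro k
    have hc : Continuous fun v : ℝ => pt z (v + (k.val : ℝ)) :=
      (continuous_pt z).comp (by fun_prop)
    exact (hc.tendsto v).eventually (C.irr.nhd _)
  have h2 : ∀ᶠ v' in 𝓝 v, ∀ k : Fin 6, T (pt z (v' + (k.val : ℝ))) =
      T (pt z (v + (k.val : ℝ))) := by
    filter_upwards [h1, hwo.mem_nhds hv] with v' hv1 hv2
    have h3 : f v ≤ f v' := not_lt.1 (hmin _ ⟨v', hv2, rfl⟩)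
    have h4 : ∀ k : Fin 6, (T (pt z (v' + (k.val : ℝ)))).ncard ≤
        (T (pt z (v + (k.val : ℝ)))).ncard := fun k =>
      Set.ncard_le_ncard (hv1 k) (Set.toFinite _)
    have h5 : ∀ k : Fin 6, (T (pt z (v' + (k.val : ℝ)))).ncard =
        (T (pt z (v + (k.val : ℝ)))).ncard := by
      intro k
      by_contra hne
      have h6 : f v' < f v := Finset.sum_lt_sum (fun k _ => h4 k)
        ⟨k, Finset.mem_univ k, lt_of_le_of_ne (h4 k) hne⟩
      omega
    intro k
    exact Set.eq_of_subset_of_ncard_le (hv1 k) (h5 k).ge (Set.toFinite _)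
  intro k
  have hc : Tendsto (fun v' : ℝ => v' - (k.val : ℝ)) (𝓝 (v + (k.val : ℝ))) (𝓝 v) := by
    have : Continuous fun v' : ℝ => v' - (k.val : ℝ) := by fun_prop
    have h3 := this.tendsto (v + (k.val : ℝ))
    rwa [add_sub_cancel_right] at h3
  filter_upwards [hc.eventually h2] with v' hv'
  have := hv' k
  rwa [sub_add_cancel] at this

/-- antipodal palettes at a generic time -/
theorem Six6.anti (C : Six6 U T z) {u : ℝ} (hu : Gn T z u) (k : Fin 6) :
    (T (pt z (u + (k.val : ℝ))) ∪ T (pt z (u + ((k + 3).val : ℝ)))).ncard ≤ 4 := by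
  by_contra hcon
  -- at most one missing colour
  obtain ⟨x, hx⟩ : ∃ x : Fin 6, ∀ i : Fin 6, i ≠ x → i ∈ T (pt z (u + (k.val : ℝ))) ∪
      T (pt z (u + ((k + 3).val : ℝ))) := by
    have h1 := Set.ncard_add_ncard_compl (T (pt z (u + (k.val : ℝ))) ∪
      T (pt z (u + ((k + 3).val : ℝ))))
    rw [Nat.card_eq_fintype_card, Fintype.card_fin] at h1
    have h2 : ((T (pt z (u + (k.val : ℝ))) ∪ T (pt z (u + ((k + 3).val : ℝ))))ᶜ).ncard ≤ 1 := by
      omega
    rcases Set.eq_empty_or_nonempty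
      ((T (pt z (u + (k.val : ℝ))) ∪ T (pt z (u + ((k + 3).val : ℝ))))ᶜ) with h3 | ⟨x, hx⟩
    · refine ⟨0, fun i _ => ?_⟩
      by_contra h4
      have : i ∈ (T (pt z (u + (k.val : ℝ))) ∪ T (pt z (u + ((k + 3).val : ℝ))))ᶜ := h4
      rw [h3] at this
      exact this
    · refine ⟨x, fun i hi => ?_⟩
      by_contra h4
      exact hi ((Set.ncard_le_one (Set.toFinite _)).1 h2 i h4 x hx)
  have h0 := hu k
  have h3 := hu (k + 3)
  rw [pt_fin3] at h3 hx
  obtain ⟨η1, hη1, hb1⟩ := Metric.eventually_nhds_iff.1 h0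
  obtain ⟨η2, hη2, hb2⟩ := Metric.eventually_nhds_iff.1 h3
  have hzX : z ∈ XX U := by
    obtain ⟨i, hi⟩ := C.irr.ne (pt z u)
    exact C.irr.mem_XX (by rw [dist_comm]; exact dist_pt z u) (C.all i) (C.irr.sub _ hi)
  have hpi : (0 : ℝ) < Real.pi / 3 := by positivity
  set η := min η1 η2 * (Real.pi / 3) with hη
  have hη0 : 0 < η := by positivity
  have hcis : ∀ t : ℝ, z + (pt z (u + (k.val : ℝ)) - z) * cis t =
      pt z (u + (k.val : ℝ) + t / (Real.pi / 3)) := by
    intro t
    unfold pt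
    rw [add_sub_cancel_left, ← S5.H767.cis_add]
    congr 2
    field_simp
  have hsmall : ∀ t ∈ Ioo (-η) η, |t / (Real.pi / 3)| < min η1 η2 := by
    intro t ht
    rw [abs_div, abs_of_pos hpi, div_lt_iff₀ hpi]
    exact abs_lt.2 ht
  have e1 : ∀ t ∈ Ioo (-η) η, T (z + (pt z (u + (k.val : ℝ)) - z) * cis t) =
      T (pt z (u + (k.val : ℝ))) := by
    intro t ht
    rw [hcis]
    refine hb1 ?_
    rw [Real.dist_eq, add_sub_cancel_left]
    exact lt_of_lt_of_le (hsmall t ht) (min_le_left _ _)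
  have e2 : ∀ t ∈ Ioo (-η) η, T (2 * z - (z + (pt z (u + (k.val : ℝ)) - z) * cis t)) =
      T (2 * z - pt z (u + (k.val : ℝ))) := by
    intro t ht
    rw [hcis]
    have h5 : 2 * z - pt z (u + (k.val : ℝ) + t / (Real.pi / 3)) =
        pt z (u + ((k + 3).val : ℝ) + t / (Real.pi / 3)) := by
      have h6 := pt_fin3 z (u + t / (Real.pi / 3)) k
      have h7 : u + t / (Real.pi / 3) + ((k + 3).val : ℝ) =
          u + ((k + 3).val : ℝ) + t / (Real.pi / 3) := by ring
      have h8 : u + t / (Real.pi / 3) + (k.val : ℝ) =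
          u + (k.val : ℝ) + t / (Real.pi / 3) := by ring
      rw [h7, h8] at h6
      exact h6.symm
    rw [h5]
    refine hb2 ?_
    rw [Real.dist_eq, add_sub_cancel_left]
    exact lt_of_lt_of_le (hsmall t ht) (min_le_right _ _)
  refine S5.H450.gap_arcs C.irr (x := x) hzX (dist_pt z (u + (k.val : ℝ))) hη0
    (P := T (pt z (u + (k.val : ℝ)))) ?_ ?_ ?_
  · intro t ht
    rw [e1 t ht]
  · intro t ht
    rw [e2 t ht, ← pt_fin3]
    exact C.clean _ (dist_pt z _)
  · intro t ht i _
    rw [e2 t ht]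
    by_cases hi : i = x
    · exact Or.inl hi
    · rcases hx i hi with h5 | h5
      · exact Or.inr (Or.inr h5)
      · exact Or.inr (Or.inl h5)

/-! ### The value of the invariant -/

theorem pair_card {P : Set (Fin 6)} (h : ∃ x y, MC T z x y ∧ P = {x, y}) : P.ncard = 2 := by
  obtain ⟨x, y, hxy, rfl⟩ := h
  exact Set.ncard_pair hxy.1

/-- a selection at a generic time is a legal word -/
theorem Six6.legM (C : Six6 U T z) {u : ℝ} (hu : Gn T z u) {a : Fin 6 → Set (Fin 6)}
    (ha : Sel T z u a) : LegM (MC T z) a := by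
  refine ⟨fun k => (ha k).1, fun k => ?_⟩
  have h1 := C.disj (hu k)
  rw [← pt_fin] at h1
  exact h1.mono (ha k).2 (ha (k + 1)).2

/-- invariance under the moves -/
def InvM (M : Fin 6 → Fin 6 → Prop) (cmp : (Fin 6 → Set (Fin 6)) → ℕ) : Prop :=
  ∀ h k Q, LegM M h → LegM M (Function.update h k Q) → (h k ∩ Q).Nonempty →
    (h (k + 3) ∩ (h k ∪ Q)).Nonempty → cmp (Function.update h k Q) = cmp h

theorem pairs_meet {P Q R : Set (Fin 6)} (hP : P.ncard = 2) (hQ : Q.ncard = 2) (hR : R.ncard ≤ 3)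
    (h1 : P ⊆ R) (h2 : Q ⊆ R) : (P ∩ Q).Nonempty := by
  by_contra h3
  rw [Set.not_nonempty_iff_eq_empty, ← Set.disjoint_iff_inter_eq_empty] at h3
  have h4 := Set.ncard_union_eq h3 (Set.toFinite _) (Set.toFinite _)
  have h5 := Set.ncard_le_ncard (union_subset h1 h2) (Set.toFinite R)
  omega

theorem Six6.sel_cmp (C : Six6 U T z) {cmp : (Fin 6 → Set (Fin 6)) → ℕ}
    (hinv : InvM (MC T z) cmp) {u : ℝ} (hu : Gn T z u) {a a' : Fin 6 → Set (Fin 6)}
    (ha : Sel T z u a) (ha' : Sel T z u a') : cmp a = cmp a' := by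
  classical
  -- one step
  have step : ∀ (h : Fin 6 → Set (Fin 6)), Sel T z u h → ∀ k, Sel T z u (Function.update h k (a' k)) ∧
      cmp (Function.update h k (a' k)) = cmp h := by
    intro h hh k
    have h1 : Sel T z u (Function.update h k (a' k)) := by
      intro j
      by_cases hj : j = k
      · subst hj; rw [Function.update_self]; exact ha' j
      · rw [Function.update_of_ne hj]; exact hh j
    refine ⟨h1, ?_⟩
    by_cases heq : h k = a' k
    · rw [← heq, Function.update_eq_self]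
    have c1 := pair_card (hh k).1
    have c2 := pair_card (ha' k).1
    have c3 := pair_card (hh (k + 3)).1
    refine hinv h k (a' k) (C.legM hu hh) (C.legM hu h1)
      (pairs_meet c1 c2 (C.clean _ (dist_pt z _)) (hh k).2 (ha' k).2) ?_
    -- the two pairs fill the palette
    have c4 : 3 ≤ (h k ∪ a' k).ncard := by
      by_contra hcon
      have h2 : h k = h k ∪ a' k := Set.eq_of_subset_of_ncard_le subset_union_left
        (by omega) (Set.toFinite _)
      have h3 : a' k = h k ∪ a' k := Set.eq_of_subset_of_ncard_le subset_union_right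
        (by omega) (Set.toFinite _)
      exact heq (h2.trans h3.symm)
    by_contra hcon
    rw [Set.not_nonempty_iff_eq_empty, ← Set.disjoint_iff_inter_eq_empty] at hcon
    have h2 := Set.ncard_union_eq hcon (Set.toFinite _) (Set.toFinite _)
    have h3 := C.anti hu k
    have h4 := Set.ncard_le_ncard (show h (k + 3) ∪ (h k ∪ a' k) ⊆
      T (pt z (u + (k.val : ℝ))) ∪ T (pt z (u + ((k + 3).val : ℝ))) from
      union_subset ((hh (k + 3)).2.trans subset_union_right)
        ((union_subset (hh k).2 (ha' k).2).trans subset_union_left)) (Set.toFinite _)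
    omega
  have key : ∀ D : Finset (Fin 6), Sel T z u (fun k => if k ∈ D then a' k else a k) ∧
      cmp (fun k => if k ∈ D then a' k else a k) = cmp a := by
    intro D
    induction D using Finset.induction_on with
    | empty =>
      have e : (fun k => if k ∈ (∅ : Finset (Fin 6)) then a' k else a k) = a := by
        funext k; rw [if_neg (Finset.notMem_empty k)]
      rw [e]; exact ⟨ha, rfl⟩
    | insert j D hj ih =>
      have e : (fun k => if k ∈ insert j D then a' k else a k) =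
          Function.update (fun k => if k ∈ D then a' k else a k) j (a' j) := by
        funext k
        by_cases hk : k = j
        · subst hk
          rw [Function.update_self, if_pos (Finset.mem_insert_self k D)]
        · rw [Function.update_of_ne hk]
          by_cases hkD : k ∈ D
          · rw [if_pos (Finset.mem_insert_of_mem hkD), if_pos hkD]
          · rw [if_neg hkD, if_neg]
            rw [Finset.mem_insert]
            exact not_or.mpr ⟨hk, hkD⟩
      obtain ⟨h1, h2⟩ := step _ ih.1 j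
      rw [e]
      exact ⟨h1, h2.trans ih.2⟩
  have h1 := (key Finset.univ).2
  have e : (fun k => if k ∈ (Finset.univ : Finset (Fin 6)) then a' k else a k) = a' := by
    funext k; rw [if_pos (Finset.mem_univ k)]
  rw [e] at h1
  exact h1.symm

/-- the value of the invariant at the time `u` -/
def val (T : ℂ → Set (Fin 6)) (z : ℂ) (cmp : (Fin 6 → Set (Fin 6)) → ℕ) (u : ℝ) : ℕ :=
  open Classical in if h : ∃ a, Sel T z u a then cmp h.choose else 0

theorem Six6.val_eq (C : Six6 U T z) {cmp : (Fin 6 → Set (Fin 6)) → ℕ}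
    (hinv : InvM (MC T z) cmp) {u : ℝ} (hu : Gn T z u) {a : Fin 6 → Set (Fin 6)}
    (ha : Sel T z u a) : val T z cmp u = cmp a := by
  unfold val
  have h : ∃ a, Sel T z u a := ⟨a, ha⟩
  rw [dif_pos h]
  exact C.sel_cmp hinv hu h.choose_spec ha

/-- the value is locally constant at generic times -/
theorem Six6.val_const (C : Six6 U T z) {cmp : (Fin 6 → Set (Fin 6)) → ℕ}
    (hinv : InvM (MC T z) cmp) {u : ℝ} (hu : Gn T z u) :
    ∀ᶠ v in 𝓝 u, val T z cmp v = val T z cmp u := by
  obtain ⟨a, ha⟩ := C.exists_sel u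
  have h1 : ∀ᶠ v in 𝓝 u, Sel T z v a := by
    have h2 : ∀ᶠ v in 𝓝 u, ∀ k : Fin 6, T (pt z (v + (k.val : ℝ))) =
        T (pt z (u + (k.val : ℝ))) := by
      rw [eventually_all]
      intro k
      have hc : Tendsto (fun v : ℝ => v + (k.val : ℝ)) (𝓝 u) (𝓝 (u + (k.val : ℝ))) := by
        have : Continuous fun v : ℝ => v + (k.val : ℝ) := by fun_prop
        exact this.tendsto u
      exact hc.eventually (hu k)
    filter_upwards [h2] with v hv k
    exact ⟨(ha k).1, by rw [hv k]; exact (ha k).2⟩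
  filter_upwards [h1, gn_open.mem_nhds hu] with v hv hv2
  rw [C.val_eq hinv hv2 hv, C.val_eq hinv hu ha]

/-- the value changes under the rotation -/
theorem Six6.val_rot (C : Six6 U T z) {cmp : (Fin 6 → Set (Fin 6)) → ℕ}
    (hinv : InvM (MC T z) cmp)
    (hrot : ∀ h, LegM (MC T z) h → cmp (fun k => h (k + 1)) ≠ cmp h) {u : ℝ} (hu : Gn T z u) :
    val T z cmp (u + 1) ≠ val T z cmp u := by
  obtain ⟨a, ha⟩ := C.exists_sel u
  have h1 : Sel T z (u + 1) (fun k => a (k + 1)) := by
    intro k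
    refine ⟨(ha (k + 1)).1, ?_⟩
    have h2 := (ha (k + 1)).2
    rw [pt_fin] at h2
    have e : u + 1 + (k.val : ℝ) = u + (k.val : ℝ) + 1 := by ring
    rw [e]
    exact h2
  rw [C.val_eq hinv hu.shift h1, C.val_eq hinv hu ha]
  exact hrot a (C.legM hu ha)

/-- **A break.** There is a time such that the values at generic times near it are not all the
same. -/
theorem Six6.exists_break (C : Six6 U T z) {cmp : (Fin 6 → Set (Fin 6)) → ℕ}
    (hinv : InvM (MC T z) cmp)
    (hrot : ∀ h, LegM (MC T z) h → cmp (fun k => h (k + 1)) ≠ cmp h) :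
    ∃ u : ℝ, ∀ c, ¬ ∀ᶠ v in 𝓝 u, Gn T z v → val T z cmp v = c := by
  by_contra hcon
  push Not at hcon
  choose c hc using hcon
  have hloc : IsLocallyConstant c := by
    rw [IsLocallyConstant.iff_eventually_eq]
    intro u
    have h1 := eventually_eventually_nhds.2 (hc u)
    filter_upwards [h1] with v hv
    have h2 := hc v
    obtain ⟨w, ⟨hw1, hw2⟩, hw3⟩ := ((hv.and h2).and_frequently
      (mem_closure_iff_frequently.1 (C.gn_dense v))).exists
    rw [← hw2 hw3, hw1 hw3]
  obtain ⟨u, hu⟩ := C.gn_dense.nonempty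
  have hu : Gn T z u := hu
  have h1 : val T z cmp u = c u := (hc u).self_of_nhds hu
  have h2 : val T z cmp (u + 1) = c (u + 1) := (hc (u + 1)).self_of_nhds hu.shift
  have h3 : c (u + 1) = c u := hloc.apply_eq_of_preconnectedSpace _ _
  exact C.val_rot hinv hrot hu (by rw [h2, h3, h1])

end Vale.Agent.P032.Words6.H704
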