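import Vale.Agent.P032.S5.H555.TypeArc
import Vale.Agent.P032.S5.H306.Repro

/-!
# P032: the colours of a point are not two triples with all nine pairs broken

`Irr.no_k33`: if `T z = A ∪ B`, `|A| = |B| = 3`, then some pair `{a, b}`, `a ∈ A`, `b ∈ B`, is not the
palette of a point of `S(z)`.
-/

open Set Filter Topology Metric

namespace Vale.Agent.P032.Six

variable {U : Fin 6 → Set ℂ} {T : ℂ → Set (Fin 6)}

namespace Irr

/-- near `z` a point without the colour `x` has colours of `A` only or of `B` only -/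
theorem k33_split (h : Irr U T)
    (hmin : ∀ z, 4 ≤ (T z).ncard → ∀ s, s ⊆ T z → s ≠ T z →
      ¬ ∀ᶠ w in 𝓝 z, ∃ i ∈ s, w ∈ U i ∨ (w ∈ XX U ∧ i ∈ Pal U w)) {z : ℂ}
    {A B : Set (Fin 6)} (hz : T z = A ∪ B) (hAB : Disjoint A B) (hA : A.ncard = 3)
    (hB : B.ncard = 3) (hbr : ∀ a ∈ A, ∀ b ∈ B, ∃ q, dist q z = 1 ∧ T q = {a, b}) {x : Fin 6}
    (hx : x ∈ T z) : ∀ᶠ w in 𝓝 z, x ∉ T w → T w ⊆ A ∨ T w ⊆ B := by
  rw [hz] at hx
  rcases hx with hx | hx
  · have h1 := h.split hmin (z := z) (x := x) (A := A \ {x}) (B := B)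
      (by
        rw [hz]
        intro i hi
        rcases hi with hi | hi
        · by_cases hix : i = x
          · exact Or.inl hix
          · exact Or.inr (Or.inl ⟨hi, hix⟩)
        · exact Or.inr (Or.inr hi))
      (fun i hi => by rw [hz]; exact Or.inl hi.1) (fun i hi => by rw [hz]; exact Or.inr hi)
      (by rw [Set.ncard_sdiff_singleton_of_mem hx, hA]) (hAB.mono_left sdiff_subset)
      (fun a ha b hb => hbr a ha.1 b hb)
    filter_upwards [h1] with w hw hxw
    rcases hw hxw with h2 | h2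
    · exact Or.inl (h2.trans sdiff_subset)
    · exact Or.inr h2
  · have h1 := h.split hmin (z := z) (x := x) (A := B \ {x}) (B := A)
      (by
        rw [hz]
        intro i hi
        rcases hi with hi | hi
        · exact Or.inr (Or.inr hi)
        · by_cases hix : i = x
          · exact Or.inl hix
          · exact Or.inr (Or.inl ⟨hi, hix⟩))
      (fun i hi => by rw [hz]; exact Or.inr hi.1) (fun i hi => by rw [hz]; exact Or.inl hi)
      (by rw [Set.ncard_sdiff_singleton_of_mem hx, hB]) (hAB.symm.mono_left sdiff_subset)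
      (fun b hb a ha => by
        obtain ⟨q, hq1, hq2⟩ := hbr a ha b hb.1
        exact ⟨q, hq1, by rw [hq2, Set.pair_comm]⟩)
    filter_upwards [h1] with w hw hxw
    rcases hw hxw with h2 | h2
    · exact Or.inr (h2.trans sdiff_subset)
    · exact Or.inl h2

/-- **No two triples with all pairs broken.** -/
theorem no_k33 (h : Irr U T)
    (hmin : ∀ z, 4 ≤ (T z).ncard → ∀ s, s ⊆ T z → s ≠ T z →
      ¬ ∀ᶠ w in 𝓝 z, ∃ i ∈ s, w ∈ U i ∨ (w ∈ XX U ∧ i ∈ Pal U w)) {z : ℂ}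
    {A B : Set (Fin 6)} (hz : T z = A ∪ B) (hAB : Disjoint A B) (hA : A.ncard = 3)
    (hB : B.ncard = 3) (hbr : ∀ a ∈ A, ∀ b ∈ B, ∃ q, dist q z = 1 ∧ T q = {a, b}) : False := by
  have h4 : 4 ≤ (T z).ncard := by
    rw [hz, Set.ncard_union_eq hAB (Set.toFinite _) (Set.toFinite _), hA, hB]
    norm_num
  have hAz : A ⊆ T z := fun i hi => by rw [hz]; exact Or.inl hi
  have hBz : B ⊆ T z := fun i hi => by rw [hz]; exact Or.inr hi
  obtain ⟨b1, b2, b3, h12, h13, h23, rfl⟩ := Set.ncard_eq_three.1 hB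
  obtain ⟨a, ha⟩ : A.Nonempty := by
    rw [← Set.ncard_pos (Set.toFinite _), hA]; norm_num
  -- circles with colours of `A` only
  have hb1 : b1 ∈ ({b1, b2, b3} : Set (Fin 6)) := Or.inl rfl
  obtain ⟨v, hvz, δ, hδ, hfr⟩ := h.type_arc hmin h4 (hBz hb1) hAz ⟨a, ha⟩
    (fun h1 => Set.disjoint_left.1 hAB h1 hb1) (by
      filter_upwards [h.k33_split hmin hz hAB hA hB hbr (hBz hb1)] with w hw hxw
      rcases hw hxw with h1 | h1
      · exact Or.inl h1
      · exact Or.inr (hAB.mono_right h1))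
  -- a broken pair away from `v`
  have hq : ∃ b ∈ ({b1, b2, b3} : Set (Fin 6)), ∃ q, dist q z = 1 ∧ T q = {a, b} ∧ v ≠ q ∧
      v + q ≠ 2 * z := by
    obtain ⟨q1, hq1, hT1⟩ := hbr a ha b1 (Or.inl rfl)
    obtain ⟨q2, hq2, hT2⟩ := hbr a ha b2 (Or.inr (Or.inl rfl))
    obtain ⟨q3, hq3, hT3⟩ := hbr a ha b3 (Or.inr (Or.inr rfl))
    have key : ∀ {x y : Fin 6}, x ∈ ({b1, b2, b3} : Set (Fin 6)) → x ≠ y →
        ({a, x} : Set (Fin 6)) ≠ {a, y} := by
      intro x y hx hxy he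
      have h1 : x ∈ ({a, y} : Set (Fin 6)) := by rw [← he]; exact Or.inr rfl
      rcases h1 with h1 | h1
      · exact Set.disjoint_left.1 hAB ha (h1 ▸ hx)
      · exact hxy h1
    have n12 : q1 ≠ q2 := by
      rintro rfl
      exact key (Or.inl rfl) h12 (hT1.symm.trans hT2)
    have n13 : q1 ≠ q3 := by
      rintro rfl
      exact key (Or.inl rfl) h13 (hT1.symm.trans hT3)
    have n23 : q2 ≠ q3 := by
      rintro rfl
      exact key (Or.inr (Or.inl rfl)) h23 (hT2.symm.trans hT3)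
    by_contra hcon
    push Not at hcon
    have c1 : q1 = v ∨ q1 = 2 * z - v := by
      by_cases h1 : v = q1
      · exact Or.inl h1.symm
      · right
        rw [← hcon b1 (Or.inl rfl) q1 hq1 hT1 h1]; ring
    have c2 : q2 = v ∨ q2 = 2 * z - v := by
      by_cases h1 : v = q2
      · exact Or.inl h1.symm
      · right
        rw [← hcon b2 (Or.inr (Or.inl rfl)) q2 hq2 hT2 h1]; ring
    have c3 : q3 = v ∨ q3 = 2 * z - v := by
      by_cases h1 : v = q3
      · exact Or.inl h1.symm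
      · right
        rw [← hcon b3 (Or.inr (Or.inr rfl)) q3 hq3 hT3 h1]; ring
    rcases c1 with c1 | c1 <;> rcases c2 with c2 | c2 <;> rcases c3 with c3 | c3
    · exact n12 (c1.trans c2.symm)
    · exact n12 (c1.trans c2.symm)
    · exact n13 (c1.trans c3.symm)
    · exact n23 (c2.trans c3.symm)
    · exact n23 (c2.trans c3.symm)
    · exact n13 (c1.trans c3.symm)
    · exact n12 (c1.trans c2.symm)
    · exact n12 (c1.trans c2.symm)
  obtain ⟨b, hb, q, hqz, hTq, hvq, hvq2⟩ := hq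
  obtain ⟨r, hr, hrs⟩ := Metric.eventually_nhds_iff.1
    (h.k33_split hmin hz hAB hA hB hbr (hAz ha))
  have hzq : dist z q = 1 := by rw [dist_comm]; exact hqz
  obtain ⟨δ1, hδ1, hjoin⟩ := circle_join hzq hr
  have ht : Tendsto (fun w => q + (w - z)) (𝓝 z) (𝓝 q) := by
    have hc : Continuous fun w : ℂ => q + (w - z) := by fun_prop
    have := hc.tendsto z
    simpa using this
  have hcross := ht.eventually (cross_near306 (y := v) (w := z) (v := q)
    (by rw [dist_comm]; exact hvz) hzq hvq hvq2 (N := ball z (min δ δ1))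
    (ball_mem_nhds z (lt_min hδ hδ1)))
  obtain ⟨w, hw1, ⟨p, hpN, hpv, hpg⟩, hw3, hw4⟩ := ((h.pure z b (hBz hb)).and_eventually
    (hcross.and ((ht.eventually (h.nhd q)).and (ball_mem_nhds z hδ1)))).exists
  have hw4 : dist w z < δ1 := hw4
  have hwb : w ∈ U b := h.mem_of_single hw1.subset
  have hwg : dist w (q + (w - z)) = 1 := by
    rw [dist_eq_norm] at hzq ⊢
    rw [← hzq]; congr 1; ring
  have hga : q + (w - z) ∈ U a := by
    refine h.mem_of_single fun i hi => ?_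
    have h1 := hw3 hi
    rw [hTq] at h1
    rcases h1 with h1 | h1
    · exact h1
    · exact absurd (h.sub _ (h1 ▸ hi)) (h.mx.notMem' hwb hwg)
  have hgq : dist (q + (w - z)) q = dist w z := by
    rw [dist_eq_norm, dist_eq_norm]; congr 1; ring
  have hpN' : dist p z < min δ δ1 := hpN
  obtain ⟨a', ha', hap⟩ := type_curve h hfr hpv (lt_of_lt_of_le hpN' (min_le_left _ _))
  obtain ⟨C, hC, hC1, hC2, hCx⟩ := hjoin _ w p (by rw [hgq]; exact hw4) hw4
    (lt_of_lt_of_le hpN' (min_le_right _ _)) hwg hpg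
  have hCA : ∀ x ∈ C, T x ⊆ A ∨ T x ⊆ {b1, b2, b3} := by
    intro x hx
    refine hrs (hCx x hx).2 fun hax => ?_
    exact h.mx.notMem' hga (by rw [dist_comm]; exact (hCx x hx).1) (h.sub x hax)
  have hcl1 : IsClosed (⋃ i ∈ A, {x | i ∈ T x}) :=
    (Set.toFinite _).isClosed_biUnion fun i _ => h.closed i
  have hcl2 : IsClosed (⋃ i ∈ ({b1, b2, b3} : Set (Fin 6)), {x | i ∈ T x}) :=
    (Set.toFinite _).isClosed_biUnion fun i _ => h.closed i
  obtain ⟨x, hxC, hx1, hx2⟩ := isPreconnected_closed_iff.1 hC _ _ hcl1 hcl2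
    (fun x hx => by
      obtain ⟨i, hi⟩ := h.ne x
      rcases hCA x hx with h1 | h1
      · exact Or.inl (mem_iUnion₂.2 ⟨i, h1 hi, hi⟩)
      · exact Or.inr (mem_iUnion₂.2 ⟨i, h1 hi, hi⟩))
    ⟨p, hC2, mem_iUnion₂.2 ⟨a', ha', hap⟩⟩
    ⟨w, hC1, mem_iUnion₂.2 ⟨b, hb, by show b ∈ T w; rw [hw1]; rfl⟩⟩
  obtain ⟨i, hi, hix⟩ := mem_iUnion₂.1 hx1
  obtain ⟨j, hj, hjx⟩ := mem_iUnion₂.1 hx2
  rcases hCA x hxC with h1 | h1
  · exact Set.disjoint_left.1 hAB (h1 hjx) hj
  · exact Set.disjoint_left.1 hAB hi (h1 hix)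

end Irr

end Vale.Agent.P032.Six
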