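import Vale.Agent.P032.Words6.H704.Relabel
import Vale.Agent.P032.Words6.H704.NoK33
import Vale.Agent.P032.S5.H360.Degree

/-!
# P032: the table of a six-coloured centre over `Irr`

`MC T z a b`: the pair `{a, b}` is the palette of a point of `S(z)`.  For a point with six colours the
words over `MC T z` have the invariant of `Words6.H704.TabM`.
-/

open Set Filter Topology Metric

namespace Vale.Agent.P032.Six

variable {U : Fin 6 → Set ℂ} {T : ℂ → Set (Fin 6)}

/-- the broken pairs at `z` -/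
def MC (T : ℂ → Set (Fin 6)) (z : ℂ) (a b : Fin 6) : Prop :=
  a ≠ b ∧ ∃ q, dist q z = 1 ∧ T q = {a, b}

namespace Irr

/-- **The table.** -/
theorem tab6 (h : Irr U T)
    (hmin : ∀ z, 4 ≤ (T z).ncard → ∀ s, s ⊆ T z → s ≠ T z →
      ¬ ∀ᶠ w in 𝓝 z, ∃ i ∈ s, w ∈ U i ∨ (w ∈ XX U ∧ i ∈ Pal U w)) {z : ℂ}
    (h6 : (T z).ncard = 6) : Words6.H704.TabM (MC T z) := by
  have huniv : T z = univ := by
    refine Set.eq_univ_of_forall ?_
    have h1 : (T z) = univ := Set.eq_of_subset_of_ncard_le (subset_univ _)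
      (by rw [h6, Set.ncard_univ, Nat.card_eq_fintype_card, Fintype.card_fin]) (Set.toFinite _)
    rw [h1]
    exact fun x => mem_univ x
  refine Words6.H704.k6_table ?_ ?_ ?_ ?_
  · rintro a b ⟨hab, q, hq, hT⟩
    exact ⟨hab.symm, q, hq, by rw [hT, Set.pair_comm]⟩
  · rintro a ⟨ha, -⟩
    exact ha rfl
  · intro a d had
    by_contra hcon
    push Not at hcon
    refine h.degree hmin (z := z) (by omega) (a := a) (d := d) (by rw [huniv]; exact mem_univ _)
      (by rw [huniv]; exact mem_univ _) had ?_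
    intro j _ hja hjd
    obtain ⟨-, q, hq⟩ := hcon j hja hjd
    exact ⟨q, hq⟩
  · rintro ⟨A, hA, hbr⟩
    refine h.no_k33 hmin (z := z) (A := (A : Set (Fin 6))) (B := ((A : Set (Fin 6)))ᶜ)
      (by rw [huniv, Set.union_compl_self]) disjoint_compl_right
      (by rw [Set.ncard_coe_finset, hA]) ?_ ?_
    · rw [Set.ncard_compl _ (Set.toFinite _), Set.ncard_coe_finset, hA, Nat.card_eq_fintype_card,
        Fintype.card_fin]
    · intro a ha b hb
      exact (hbr a ha b hb).2

end Irr

end Vale.Agent.P032.Six
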