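import Vale.Agent.P032.S5.H555.Chord
import Vale.Agent.P032.Words6.H704.Gen6
import Vale.Agent.P032.Words6.H704.F2Data

/-!
# P032: words of broken pairs which satisfy the chord rule exist at every generic time
-/

open Set Filter Topology Metric

noncomputable section

namespace Vale.Agent.P032.Words6.H704

open Vale.Agent.P032.Six Vale.Agent.P032.S5.H767

/-- `l` and `m` are on different sides of every splitting of the complement of `P` into two parts
which are completely joined by `M` -/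
def SpM (M : Fin 6 → Fin 6 → Prop) (P : Set (Fin 6)) (l m : Fin 6) : Prop :=
  ∀ X Y : Set (Fin 6), X ∪ Y = Pᶜ → Disjoint X Y → X.Nonempty → Y.Nonempty →
    (∀ x ∈ X, ∀ y ∈ Y, M x y) → (l ∈ X ∧ m ∈ Y) ∨ (l ∈ Y ∧ m ∈ X)

/-- the chord rule for two letters -/
def Chd (M : Fin 6 → Fin 6 → Prop) (P Q : Set (Fin 6)) : Prop :=
  ∃ l m, (l ∉ P ∧ l ∉ Q ∧ m ∉ P ∧ m ∉ Q) ∧ SpM M P l m ∧ SpM M Q l m

/-- a letter -/
def Let (M : Fin 6 → Fin 6 → Prop) (P : Set (Fin 6)) : Prop := ∃ x y, M x y ∧ P = {x, y}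

theorem Chd.symm {M : Fin 6 → Fin 6 → Prop} {P Q : Set (Fin 6)} (h : Chd M P Q) : Chd M Q P := by
  obtain ⟨l, m, ⟨h1, h2, h3, h4⟩, h5, h6⟩ := h
  exact ⟨l, m, ⟨h2, h1, h4, h3⟩, h6, h5⟩

/-- `SpM` for the graph of broken pairs of a circle -/
theorem sp_of {T : ℂ → Set (Fin 6)} {z : ℂ} {P : Set (Fin 6)} {l m : Fin 6}
    (h : Sp T z P l m) : SpM (MC T z) P l m :=
  fun X Y h1 h2 h3 h4 h5 => h X Y h1 h2 h3 h4 fun x hx y hy => (h5 x hx y hy).2

/-! ### Codes of sets -/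

/-- `n` is the code of `s` with respect to the names `f` -/
def Cd (f : Fin 6 → ℕ) (s : Set (Fin 6)) (n : ℕ) : Prop :=
  n < 64 ∧ ∀ i, n.testBit (f i) = true ↔ i ∈ s

theorem exists_cd {f : Fin 6 → ℕ} (hf : Function.Injective f) (h6 : ∀ i, f i < 6)
    (s : Set (Fin 6)) : ∃ n, Cd f s n := by
  classical
  refine ⟨Nat.ofBits (fun j : Fin 6 => decide (∃ i, f i = j.val ∧ i ∈ s)), ?_, fun i => ?_⟩
  · have := Nat.ofBits_lt_two_pow (fun j : Fin 6 => decide (∃ i, f i = j.val ∧ i ∈ s))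
    simpa using this
  · rw [Nat.testBit_ofBits_lt _ _ (h6 i)]
    rw [decide_eq_true_eq]
    constructor
    · rintro ⟨i', h1, h2⟩
      rw [← hf h1]; exact h2
    · intro h1
      exact ⟨i, rfl, h1⟩

/-- the names are all numbers below six -/
theorem surj {f : Fin 6 → ℕ} (hf : Function.Injective f) (h6 : ∀ i, f i < 6) {j : ℕ} (hj : j < 6) :
    ∃ i, f i = j := by
  have h1 : Function.Injective (fun i : Fin 6 => (⟨f i, h6 i⟩ : Fin 6)) := fun a b h =>
    hf (congrArg Fin.val h)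
  obtain ⟨i, hi⟩ := (Finite.injective_iff_surjective.1 h1) ⟨j, hj⟩
  exact ⟨i, congrArg Fin.val hi⟩

theorem cd_unique {f : Fin 6 → ℕ} (hf : Function.Injective f) (h6 : ∀ i, f i < 6)
    {s : Set (Fin 6)} {n n' : ℕ} (h : Cd f s n) (h' : Cd f s n') : n = n' := by
  apply Nat.eq_of_testBit_eq
  intro j
  by_cases hj : j < 6
  · obtain ⟨i, rfl⟩ := surj hf h6 hj
    have := (h.2 i).trans (h'.2 i).symm
    cases h1 : n.testBit (f i) <;> cases h2 : n'.testBit (f i) <;> simp_all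
  · have h1 : ∀ n : ℕ, n < 64 → n.testBit j = false := fun n hn =>
      Nat.testBit_lt_two_pow (lt_of_lt_of_le hn (by
        calc (64 : ℕ) = 2 ^ 6 := by norm_num
          _ ≤ 2 ^ j := Nat.pow_le_pow_right (by norm_num) (not_lt.1 hj)))
    rw [h1 n h.1, h1 n' h'.1]

theorem cd_or {f : Fin 6 → ℕ} {s t : Set (Fin 6)} {n k : ℕ} (h : Cd f s n) (h' : Cd f t k) :
    Cd f (s ∪ t) (n ||| k) := by
  refine ⟨?_, fun i => ?_⟩
  · have h1 : n < 2 ^ 6 := h.1
    have h2 : k < 2 ^ 6 := h'.1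
    exact Nat.or_lt_two_pow h1 h2
  · rw [Nat.testBit_or, Bool.or_eq_true, h.2 i, h'.2 i]; rfl

theorem cd_pair {f : Fin 6 → ℕ} (hf : Function.Injective f) (h6 : ∀ i, f i < 6) (x y : Fin 6) :
    Cd f {x, y} (2 ^ f x ||| 2 ^ f y) := by
  have h1 : ∀ x : Fin 6, Cd f {x} (2 ^ f x) := by
    intro x
    refine ⟨?_, fun i => ?_⟩
    · calc 2 ^ f x < 2 ^ 6 := Nat.pow_lt_pow_right (by norm_num) (h6 x)
        _ = 64 := by norm_num
    · rw [Nat.testBit_two_pow]
      constructor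
      · intro h1
        have h2 : f x = f i := by simpa using h1
        exact (hf h2).symm
      · intro h1
        have h2 : i = x := h1
        simp [h2]
  have h2 := cd_or (h1 x) (h1 y)
  have e : ({x} : Set (Fin 6)) ∪ {y} = {x, y} := rfl
  rwa [e] at h2

theorem cd_sub {f : Fin 6 → ℕ} (hf : Function.Injective f) (h6 : ∀ i, f i < 6)
    {s t : Set (Fin 6)} {n k : ℕ} (h : Cd f s n) (h' : Cd f t k) : sbm n k = true ↔ s ⊆ t := by
  unfold sbm
  rw [Nat.beq_eq]
  constructor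
  · intro h1 i hi
    rw [← h'.2 i]
    have h2 := (h.2 i).2 hi
    rw [← h1, Nat.testBit_and, Bool.and_eq_true] at h2
    exact h2.2
  · intro h1
    have h2 : Cd f s (n &&& k) := by
      refine ⟨lt_of_le_of_lt Nat.and_le_left h.1, fun i => ?_⟩
      rw [Nat.testBit_and, Bool.and_eq_true, h.2 i, h'.2 i]
      exact ⟨fun h2 => h2.1, fun h2 => ⟨h2, h1 h2⟩⟩
    exact cd_unique hf h6 h2 h

theorem cd_card {f : Fin 6 → ℕ} (hf : Function.Injective f) (h6 : ∀ i, f i < 6)
    {s : Set (Fin 6)} {n : ℕ} (h : Cd f s n) : pcn n = s.ncard := by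
  classical
  have h1 : Function.Injective (fun i : Fin 6 => (⟨f i, h6 i⟩ : Fin 6)) := fun a b h =>
    hf (congrArg Fin.val h)
  have hb := Finite.injective_iff_bijective.1 h1
  set e := Equiv.ofBijective _ hb with he
  have hs : s.ncard = ∑ i : Fin 6, (n.testBit (f i)).toNat := by
    have h2 : s = ((Finset.univ.filter fun i => n.testBit (f i) = true : Finset (Fin 6)) :
        Set (Fin 6)) := by
      ext i
      rw [Finset.coe_filter]
      simp only [Finset.mem_univ, true_and, mem_ofPred_eq]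
      exact (h.2 i).symm
    rw [h2, Set.ncard_coe_finset, Finset.card_filter]
    refine Finset.sum_congr rfl fun i _ => ?_
    cases n.testBit (f i) <;> rfl
  rw [hs]
  have h3 : ∑ i : Fin 6, (n.testBit (f i)).toNat = ∑ j : Fin 6, (n.testBit j.val).toNat :=
    Equiv.sum_comp e fun j : Fin 6 => (n.testBit j.val).toNat
  rw [h3, Fin.sum_univ_six]
  rfl

/-! ### The graph of a list -/

/-- `M` is the graph of the data `D` -/
structure GD (M : Fin 6 → Fin 6 → Prop) (D : List (ℕ × List ℕ)) (f : Fin 6 → ℕ) : Prop where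
  inj : Function.Injective f
  lt : ∀ i, f i < 6
  ok : okD D = true
  iff : ∀ a b, a ≠ b → (M a b ↔ 2 ^ f a ||| 2 ^ f b ∈ D.map Prod.fst)
  irr : ∀ a, ¬ M a a

theorem mb_iff {l : List ℕ} {x : ℕ} : mb l x = true ↔ x ∈ l := by
  unfold mb
  rw [List.any_eq_true]
  constructor
  · rintro ⟨a, ha, h1⟩
    rw [Nat.beq_eq] at h1
    rw [← h1]; exact ha
  · intro h1
    exact ⟨x, h1, by rw [Nat.beq_eq]⟩

variable {M : Fin 6 → Fin 6 → Prop} {D : List (ℕ × List ℕ)} {f : Fin 6 → ℕ}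

/-- splittings of the masks and of the sets -/
theorem GD.spl_iff (G : GD M D f) {P X : Set (Fin 6)} {p x : ℕ} (hP : Cd f P p) (hX : Cd f X x) :
    spl (D.map Prod.fst) p x = true ↔ Disjoint X P ∧ X.Nonempty ∧ ¬ (X ∪ P = univ) ∧
      ∀ a ∈ X, ∀ b, b ∉ X → b ∉ P → M a b := by
  have hor := cd_or hX hP
  unfold spl
  rw [Bool.and_eq_true, Bool.and_eq_true, Bool.and_eq_true, Bool.not_eq_true', Bool.not_eq_true']
  have k1 : Nat.beq (x &&& p) 0 = true ↔ Disjoint X P := by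
    rw [Nat.beq_eq, Set.disjoint_left]
    constructor
    · intro h1 i hi hi'
      have h2 : (x &&& p).testBit (f i) = true := by
        rw [Nat.testBit_and, (hX.2 i).2 hi, (hP.2 i).2 hi']; rfl
      rw [h1, Nat.zero_testBit] at h2
      exact absurd h2 (by simp)
    · intro h1
      have h2 : Cd f ∅ (x &&& p) := by
        refine ⟨lt_of_le_of_lt Nat.and_le_left hX.1, fun i => ?_⟩
        rw [Nat.testBit_and, Bool.and_eq_true, hX.2 i, hP.2 i]
        exact ⟨fun h2 => h1 h2.1 h2.2, fun h2 => h2.elim⟩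
      have h3 : Cd f ∅ 0 := ⟨by norm_num, fun i => by
        rw [Nat.zero_testBit]; exact ⟨fun h => absurd h (by simp), fun h => h.elim⟩⟩
      exact cd_unique G.inj G.lt h2 h3
  have k2 : Nat.beq x 0 = false ↔ X.Nonempty := by
    rw [← Bool.not_eq_true, Nat.beq_eq]
    constructor
    · intro h1
      by_contra h2
      rw [Set.not_nonempty_iff_eq_empty] at h2
      subst h2
      have h3 : Cd f ∅ 0 := ⟨by norm_num, fun i => by
        rw [Nat.zero_testBit]; exact ⟨fun h => absurd h (by simp), fun h => h.elim⟩⟩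
      exact h1 (cd_unique G.inj G.lt hX h3)
    · rintro ⟨i, hi⟩ h1
      have h2 := (hX.2 i).2 hi
      rw [h1, Nat.zero_testBit] at h2
      exact absurd h2 (by simp)
  have k63 : Cd f univ 63 := by
    refine ⟨by norm_num, fun i => ?_⟩
    have h1 := G.lt i
    have h2 : ∀ j < 6, (63 : ℕ).testBit j = true := by decide
    exact ⟨fun _ => mem_univ _, fun _ => h2 _ h1⟩
  have k3 : Nat.beq (x ||| p) 63 = false ↔ ¬ (X ∪ P = univ) := by
    rw [← Bool.not_eq_true, Nat.beq_eq]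
    constructor
    · intro h1 h2
      rw [h2] at hor
      exact h1 (cd_unique G.inj G.lt hor k63)
    · intro h1 h2
      apply h1
      ext i
      rw [← hor.2 i, h2, k63.2 i]
  have k4 : ((List.range 6).all fun a => (List.range 6).all fun b =>
      !(x.testBit a && !((x ||| p).testBit b)) || mb (D.map Prod.fst) (2 ^ a ||| 2 ^ b)) = true ↔
      ∀ a ∈ X, ∀ b, b ∉ X → b ∉ P → M a b := by
    rw [List.all_eq_true]
    constructor
    · intro h1 a ha b hb hb'
      have h2 := h1 (f a) (List.mem_range.2 (G.lt a))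
      rw [List.all_eq_true] at h2
      have h3 := h2 (f b) (List.mem_range.2 (G.lt b))
      have h4 : x.testBit (f a) = true := (hX.2 a).2 ha
      have h5 : (x ||| p).testBit (f b) = false := by
        rw [← Bool.not_eq_true, hor.2 b]
        rintro (h6 | h6)
        · exact hb h6
        · exact hb' h6
      rw [h4, h5] at h3
      have h6 : mb (D.map Prod.fst) (2 ^ f a ||| 2 ^ f b) = true := h3
      have hne : a ≠ b := fun h7 => hb (h7 ▸ ha)
      exact (G.iff a b hne).2 (mb_iff.1 h6)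
    · intro h1 a' ha'
      obtain ⟨a, rfl⟩ := surj G.inj G.lt (List.mem_range.1 ha')
      rw [List.all_eq_true]
      intro b' hb'
      obtain ⟨b, rfl⟩ := surj G.inj G.lt (List.mem_range.1 hb')
      cases h4 : x.testBit (f a) with
      | false => rfl
      | true =>
        cases h5 : (x ||| p).testBit (f b) with
        | true => rfl
        | false =>
          have h6 : b ∉ X ∪ P := by rw [← hor.2 b, h5]; simp
          have hXa : a ∈ X := (hX.2 a).1 h4
          have hbX : b ∉ X := fun h => h6 (Or.inl h)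
          have h7 := h1 a hXa b hbX (fun h => h6 (Or.inr h))
          have hne : a ≠ b := fun h8 => hbX (h8 ▸ hXa)
          have h8 := mb_iff.2 ((G.iff a b hne).1 h7)
          rw [h8]; rfl
  rw [k1, k2, k3, k4]
  tauto

/-- the mask form of `SpM` -/
theorem GD.spb_iff (G : GD M D f) {P : Set (Fin 6)} {d : ℕ × List ℕ} (hd : d ∈ D)
    (hP : Cd f P d.1) (l m : Fin 6) : spb d (f l) (f m) = true ↔ SpM M P l m := by
  have hok := G.ok
  unfold okD at hok
  rw [Bool.and_eq_true, List.all_eq_true, List.all_eq_true] at hok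
  have h2 := hok.2 d hd
  rw [List.all_eq_true] at h2
  have hspl : ∀ X : Set (Fin 6), ∀ x, Cd f X x → (x ∈ d.2 ↔ Disjoint X P ∧ X.Nonempty ∧
      ¬ (X ∪ P = univ) ∧ ∀ a ∈ X, ∀ b, b ∉ X → b ∉ P → M a b) := by
    intro X x hX
    have h3 := h2 x (List.mem_range.2 hX.1)
    rw [beq_iff_eq] at h3
    rw [← G.spl_iff hP hX, h3, mb_iff]
  unfold spb
  rw [List.all_eq_true]
  constructor
  · intro h3 X Y h4 h5 h6 h7 h8
    obtain ⟨x, hx⟩ := exists_cd G.inj G.lt X
    have hXP : Disjoint X P := by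
      rw [Set.disjoint_left]
      intro i hi hiP
      have : i ∈ Pᶜ := h4 ▸ Or.inl hi
      exact this hiP
    have hYmem : ∀ i, i ∉ X → i ∉ P → i ∈ Y := by
      intro i hi hiP
      have : i ∈ X ∪ Y := by rw [h4]; exact hiP
      exact this.resolve_left hi
    have h9 : x ∈ d.2 := by
      rw [hspl X x hx]
      refine ⟨hXP, h6, ?_, fun a ha b hb hb' => h8 a ha b (hYmem b hb hb')⟩
      intro h10
      obtain ⟨i, hi⟩ := h7
      have h11 : i ∈ X ∪ P := by rw [h10]; exact mem_univ _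
      rcases h11 with h11 | h11
      · exact Set.disjoint_left.1 h5 h11 hi
      · have : i ∈ Pᶜ := h4 ▸ Or.inr hi
        exact this h11
    have h10 := h3 x h9
    have hor := cd_or hx hP
    rw [Bool.or_eq_true, Bool.and_eq_true, Bool.and_eq_true, Bool.not_eq_true',
      Bool.not_eq_true', ← Bool.not_eq_true, ← Bool.not_eq_true, hx.2, hx.2, hor.2, hor.2] at h10
    rcases h10 with ⟨k1, k2⟩ | ⟨k1, k2⟩
    · exact Or.inl ⟨k1, hYmem m (fun h => k2 (Or.inl h)) fun h => k2 (Or.inr h)⟩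
    · exact Or.inr ⟨hYmem l (fun h => k1 (Or.inl h)) (fun h => k1 (Or.inr h)), k2⟩
  · intro h3 x hx
    have hx64 : x < 64 := by
      have h4 := hok.1 d hd
      rw [Bool.and_eq_true, List.all_eq_true] at h4
      have h5 := h4.2 x hx
      rw [Nat.blt_eq] at h5
      exact h5
    · -- the set of `x`
      set X : Set (Fin 6) := {i | x.testBit (f i) = true} with hXd
      have hX : Cd f X x := ⟨hx64, fun i => Iff.rfl⟩
      obtain ⟨c1, c2, c3, c4⟩ := (hspl X x hX).1 hx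
      have h4 := h3 X (X ∪ P)ᶜ (by
        ext i
        constructor
        · rintro (h5 | h5)
          · exact fun h6 => Set.disjoint_left.1 c1 h5 h6
          · exact fun h6 => h5 (Or.inr h6)
        · intro h5
          by_cases h6 : i ∈ X
          · exact Or.inl h6
          · exact Or.inr (by
              rintro (h7 | h7)
              · exact h6 h7
              · exact h5 h7)) (by
        rw [Set.disjoint_left]
        exact fun i h5 h6 => h6 (Or.inl h5)) c2 (by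
        rw [Set.nonempty_compl]; exact c3) (fun a ha b hb => c4 a ha b (fun h => hb (Or.inl h))
          fun h => hb (Or.inr h))
      have hor := cd_or hX hP
      rw [Bool.or_eq_true, Bool.and_eq_true, Bool.and_eq_true, Bool.not_eq_true',
        Bool.not_eq_true', ← Bool.not_eq_true, ← Bool.not_eq_true, hX.2, hX.2, hor.2, hor.2]
      exact h4

theorem GD.let_mem (G : GD M D f) {P : Set (Fin 6)} (hP : Let M P) : ∃ d ∈ D, Cd f P d.1 := by
  obtain ⟨x, y, hxy, rfl⟩ := hP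
  have hne : x ≠ y := by
    rintro rfl
    exact G.irr x hxy
  have h1 := (G.iff x y hne).1 hxy
  rw [List.mem_map] at h1
  obtain ⟨d, hd, h2⟩ := h1
  exact ⟨d, hd, by rw [h2]; exact cd_pair G.inj G.lt x y⟩

theorem GD.mem_let (G : GD M D f) {d : ℕ × List ℕ} (hd : d ∈ D) : ∃ P, Let M P ∧ Cd f P d.1 := by
  have hok := G.ok
  unfold okD at hok
  rw [Bool.and_eq_true, List.all_eq_true] at hok
  have h1 := hok.1 d hd
  rw [Bool.and_eq_true, Bool.and_eq_true, Nat.beq_eq, Nat.blt_eq] at h1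
  have hX : Cd f {i | d.1.testBit (f i) = true} d.1 := ⟨h1.1.2, fun i => Iff.rfl⟩
  have h2 := cd_card G.inj G.lt hX
  rw [h1.1.1] at h2
  obtain ⟨x, y, hxy, h3⟩ := Set.ncard_eq_two.1 h2.symm
  rw [h3] at hX
  have h4 := cd_unique G.inj G.lt hX (cd_pair G.inj G.lt x y)
  refine ⟨{x, y}, ⟨x, y, (G.iff x y hxy).2 ?_, rfl⟩, hX⟩
  rw [← h4]
  exact List.mem_map_of_mem hd

theorem GD.chd_of (G : GD M D f) {x y : ℕ × List ℕ} (hx : x ∈ D) (hy : y ∈ D)
    {P Q : Set (Fin 6)} (hP : Cd f P x.1) (hQ : Cd f Q y.1) (h : chb x y = true) :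
    Chd M P Q := by
  unfold chb at h
  rw [List.any_eq_true] at h
  obtain ⟨l', hl', h1⟩ := h
  rw [List.any_eq_true] at h1
  obtain ⟨m', hm', h2⟩ := h1
  obtain ⟨l, rfl⟩ := surj G.inj G.lt (List.mem_range.1 hl')
  obtain ⟨m, rfl⟩ := surj G.inj G.lt (List.mem_range.1 hm')
  have hor := cd_or hP hQ
  rw [Bool.and_eq_true, Bool.and_eq_true, Bool.and_eq_true, Bool.not_eq_true', Bool.not_eq_true',
    ← Bool.not_eq_true, ← Bool.not_eq_true, hor.2, hor.2, G.spb_iff hx hP, G.spb_iff hy hQ] at h2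
  obtain ⟨⟨⟨k1, k2⟩, k3⟩, k4⟩ := h2
  exact ⟨l, m, ⟨fun h => k1 (Or.inl h), fun h => k1 (Or.inr h), fun h => k2 (Or.inl h),
    fun h => k2 (Or.inr h)⟩, k3, k4⟩

/-- a palette with only one letter: the condition -/
theorem GD.onl_false (G : GD M D f) {t : Set (Fin 6)} {n : ℕ} (hn : Cd f t n) {l m : Fin 6}
    (ho : ∀ P, Let M P → P ⊆ t → (∀ Q, Let M Q → Q ⊆ t → Q = P) → SpM M P l m) :
    onl D n (f l) (f m) = false := by
  rw [← Bool.not_eq_true]
  intro h
  unfold onl at h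
  rw [List.any_eq_true] at h
  obtain ⟨x, hx, h1⟩ := h
  rw [Bool.and_eq_true, Bool.and_eq_true, List.all_eq_true, Bool.not_eq_true'] at h1
  obtain ⟨⟨h2, h3⟩, h4⟩ := h1
  obtain ⟨P, hP, hPx⟩ := G.mem_let hx
  have h5 := ho P hP ((cd_sub G.inj G.lt hPx hn).1 h2) (by
    intro Q hQ hQt
    obtain ⟨d, hd, hQd⟩ := G.let_mem hQ
    have h6 := h3 d hd
    rw [(cd_sub G.inj G.lt hQd hn).2 hQt] at h6
    have h7 : Nat.beq d.1 x.1 = true := by simpa using h6
    rw [Nat.beq_eq] at h7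
    ext i
    rw [← hQd.2 i, ← hPx.2 i, h7])
  rw [← G.spb_iff hx hPx, h4] at h5
  exact absurd h5 (by simp)

/-- **Fact II** -/
theorem GD.fact2 (G : GD M D f) (hD : f2D D pals = true) {t t2 : Set (Fin 6)}
    (ht : ∃ P, Let M P ∧ P ⊆ t) (ht2 : ∃ P, Let M P ∧ P ⊆ t2) (h3 : t.ncard ≤ 3)
    (h3' : t2.ncard ≤ 3) (h4 : (t ∪ t2).ncard ≤ 4) {l m : Fin 6} (hl : l ∉ t ∪ t2)
    (hm : m ∉ t ∪ t2)
    (ho : ∀ P, Let M P → P ⊆ t → (∀ Q, Let M Q → Q ⊆ t → Q = P) → SpM M P l m)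
    (ho2 : ∀ P, Let M P → P ⊆ t2 → (∀ Q, Let M Q → Q ⊆ t2 → Q = P) → SpM M P l m) :
    ∃ P Q, (Let M P ∧ P ⊆ t) ∧ (Let M Q ∧ Q ⊆ t2) ∧ Chd M P Q := by
  obtain ⟨n, hn⟩ := exists_cd G.inj G.lt t
  obtain ⟨k, hk⟩ := exists_cd G.inj G.lt t2
  have hpal : ∀ (t : Set (Fin 6)) (n : ℕ), Cd f t n → (∃ P, Let M P ∧ P ⊆ t) → t.ncard ≤ 3 →
      n ∈ pals ∧ (D.any fun x => sbm x.1 n) = true := by
    intro t n hn ht h3
    obtain ⟨P, hP, hPt⟩ := ht
    obtain ⟨d, hd, hPd⟩ := G.let_mem hP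
    constructor
    · refine pals_ok n hn.1 ?_
      rw [cd_card G.inj G.lt hn]
      have h5 := Set.ncard_le_ncard hPt (Set.toFinite t)
      obtain ⟨x, y, hxy, rfl⟩ := hP
      rw [Set.ncard_pair (by rintro rfl; exact G.irr x hxy)] at h5
      omega
    · rw [List.any_eq_true]
      exact ⟨d, hd, (cd_sub G.inj G.lt hPd hn).2 hPt⟩
  obtain ⟨a1, a2⟩ := hpal t n hn ht h3
  obtain ⟨b1, b2⟩ := hpal t2 k hk ht2 h3'
  have hor := cd_or hn hk
  unfold f2D at hD
  rw [List.all_eq_true] at hD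
  have e1 := hD n a1
  rw [a2, Bool.not_true, Bool.false_or, List.all_eq_true] at e1
  have e2 := e1 k b1
  rw [b2, Bool.not_true, Bool.false_or] at e2
  have e3 : Nat.blt 4 (pcn (n ||| k)) = false := by
    rw [← Bool.not_eq_true, Nat.blt_eq, cd_card G.inj G.lt hor]
    omega
  rw [e3, Bool.false_or, Bool.or_eq_true] at e2
  rcases e2 with e2 | e2
  · rw [List.any_eq_true] at e2
    obtain ⟨x, hx, e4⟩ := e2
    rw [Bool.and_eq_true, List.any_eq_true] at e4
    obtain ⟨e5, y, hy, e6⟩ := e4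
    rw [Bool.and_eq_true] at e6
    obtain ⟨P, hP, hPx⟩ := G.mem_let hx
    obtain ⟨Q, hQ, hQy⟩ := G.mem_let hy
    exact ⟨P, Q, ⟨hP, (cd_sub G.inj G.lt hPx hn).1 e5⟩, ⟨hQ, (cd_sub G.inj G.lt hQy hk).1 e6.1⟩,
      G.chd_of hx hy hPx hQy e6.2⟩
  · exfalso
    rw [List.all_eq_true] at e2
    have e4 := e2 (f l) (List.mem_range.2 (G.lt l))
    rw [List.all_eq_true] at e4
    have e5 := e4 (f m) (List.mem_range.2 (G.lt m))
    have e6 : (n ||| k).testBit (f l) = false := by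
      rw [← Bool.not_eq_true, hor.2]; exact hl
    have e7 : (n ||| k).testBit (f m) = false := by
      rw [← Bool.not_eq_true, hor.2]; exact hm
    rw [e6, e7, G.onl_false hn ho, G.onl_false hk ho2] at e5
    exact absurd e5 (by simp)

/-- a letter without chord -/
theorem GD.dead_false (G : GD M D f) (hD : dead D = true)
    (h : ∀ P, Let M P → ∃ l m, SpM M P l m) : False := by
  unfold dead at hD
  rw [List.any_eq_true] at hD
  obtain ⟨x, hx, h1⟩ := hD
  obtain ⟨P, hP, hPx⟩ := G.mem_let hx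
  obtain ⟨l, m, h2⟩ := h P hP
  rw [List.all_eq_true] at h1
  have h3 := h1 (f l) (List.mem_range.2 (G.lt l))
  rw [List.all_eq_true] at h3
  have h4 := h3 (f m) (List.mem_range.2 (G.lt m))
  rw [(G.spb_iff hx hPx l m).2 h2] at h4
  exact absurd h4 (by simp)

/-! ### At a generic time -/

variable {U : Fin 6 → Set ℂ} {T : ℂ → Set (Fin 6)} {z : ℂ}

theorem Six6.card6 (C : Six6 U T z) : (T z).ncard = 6 := by
  have h1 : T z = univ := Set.eq_univ_of_forall C.all
  rw [h1, Set.ncard_univ, Nat.card_eq_fintype_card, Fintype.card_fin]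

/-- the conclusion of the chord rule at the antipodal times `u + k`, `u + k + 3` -/
def ChdAt (T : ℂ → Set (Fin 6)) (z : ℂ) (t t2 : Set (Fin 6)) : Prop :=
  ∃ l m, (l ∉ t ∪ t2 ∧ m ∉ t ∪ t2) ∧
    (∀ P, Let (MC T z) P → P ⊆ t → (∀ Q, Let (MC T z) Q → Q ⊆ t → Q = P) → SpM (MC T z) P l m) ∧
    ∀ P, Let (MC T z) P → P ⊆ t2 → (∀ Q, Let (MC T z) Q → Q ⊆ t2 → Q = P) → SpM (MC T z) P l m

theorem fin_add_six (k : Fin 6) : k + 3 + 3 = k := by revert k; decide

theorem fin_lt_three (k : Fin 6) (h : ¬ k.val < 3) : (k + 3).val < 3 := by revert k; decide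

theorem fin_not_lt (k : Fin 6) (h : k.val < 3) : ¬ (k + 3).val < 3 := by revert k; decide

/-- **a word of letters with the chord rule below the palettes** -/
theorem Six6.exists_word (C : Six6 U T z) (G : GD (MC T z) D f) (hD : f2D D pals = true) {u : ℝ}
    (hu : Gn T z u)
    (hch : ∀ k : Fin 6, ChdAt T z (T (pt z (u + (k.val : ℝ)))) (T (pt z (u + ((k + 3).val : ℝ))))) :
    ∃ h : Fin 6 → Set (Fin 6), (∀ k, Let (MC T z) (h k) ∧ h k ⊆ T (pt z (u + (k.val : ℝ)))) ∧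
      ∀ k, Chd (MC T z) (h k) (h (k + 3)) := by
  have hlet : ∀ k : Fin 6, ∃ P, Let (MC T z) P ∧ P ⊆ T (pt z (u + (k.val : ℝ))) := by
    intro k
    obtain ⟨x, y, hxy, hsub⟩ := C.sub_pair (dist_pt z (u + (k.val : ℝ)))
    exact ⟨{x, y}, ⟨x, y, hxy, rfl⟩, hsub⟩
  have key : ∀ k : Fin 6, ∃ P Q, (Let (MC T z) P ∧ P ⊆ T (pt z (u + (k.val : ℝ)))) ∧
      (Let (MC T z) Q ∧ Q ⊆ T (pt z (u + ((k + 3).val : ℝ)))) ∧ Chd (MC T z) P Q := by
    intro k
    obtain ⟨l, m, ⟨h1, h2⟩, h3, h4⟩ := hch k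
    exact G.fact2 hD (hlet k) (hlet (k + 3)) (C.clean _ (dist_pt z _)) (C.clean _ (dist_pt z _))
      (C.anti hu k) h1 h2 h3 h4
  choose P Q hP hQ hPQ using key
  refine ⟨fun k => if k.val < 3 then P k else Q (k + 3), fun k => ?_, fun k => ?_⟩
  · by_cases hk : k.val < 3
    · simp only [hk, if_true]
      exact hP k
    · simp only [hk, if_false]
      have := hQ (k + 3)
      rwa [fin_add_six] at this
  · by_cases hk : k.val < 3
    · have h1 := fin_not_lt k hk
      simp only [hk, h1, if_true, if_false, fin_add_six]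
      exact hPQ k
    · have h1 := fin_lt_three k hk
      simp only [hk, h1, if_true, if_false]
      exact (hPQ (k + 3)).symm

/-- every letter of the circle has a pair of separated colours -/
theorem Six6.sp_letter (C : Six6 U T z)
    (hmin : ∀ z, 4 ≤ (T z).ncard → ∀ s, s ⊆ T z → s ≠ T z →
      ¬ ∀ᶠ w in 𝓝 z, ∃ i ∈ s, w ∈ U i ∨ (w ∈ XX U ∧ i ∈ Pal U w)) {P : Set (Fin 6)}
    (hP : Let (MC T z) P) : ∃ l m, SpM (MC T z) P l m := by
  obtain ⟨x, y, ⟨hne, q, hq, hT⟩, rfl⟩ := hP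
  have h2 : (T q).ncard = 2 := by rw [hT, Set.ncard_pair hne]
  obtain ⟨t, ht⟩ := (C.irr.sp_ev555 hmin C.card6 hq h2).exists
  obtain ⟨l, hl⟩ := C.irr.ne (z + t * (Complex.I * (q - z)))
  obtain ⟨m, hm⟩ := C.irr.ne (z + t * -(Complex.I * (q - z)))
  obtain ⟨-, -, h3⟩ := ht l hl m hm
  rw [hT] at h3
  exact ⟨l, m, sp_of h3⟩

/-- the graphs of the table without chord do not occur -/
theorem Six6.not_dead (C : Six6 U T z)
    (hmin : ∀ z, 4 ≤ (T z).ncard → ∀ s, s ⊆ T z → s ≠ T z →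
      ¬ ∀ᶠ w in 𝓝 z, ∃ i ∈ s, w ∈ U i ∨ (w ∈ XX U ∧ i ∈ Pal U w)) (G : GD (MC T z) D f)
    (hD : dead D = true) : False :=
  G.dead_false hD fun _ hP => C.sp_letter hmin hP

/-- **the rule for the 35 graphs** -/
theorem Six6.f2_of (C : Six6 U T z)
    (hmin : ∀ z, 4 ≤ (T z).ncard → ∀ s, s ⊆ T z → s ≠ T z →
      ¬ ∀ᶠ w in 𝓝 z, ∃ i ∈ s, w ∈ U i ∨ (w ∈ XX U ∧ i ∈ Pal U w)) (G : GD (MC T z) D f)
    (hD : D ∈ dats) : dead D = false ∧ f2D D pals = true := by
  have h1 := List.all_eq_true.1 dats_f2 D hD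
  cases h2 : dead D with
  | true => exact (C.not_dead hmin G h2).elim
  | false =>
    rw [h2, Bool.false_or] at h1
    exact ⟨rfl, h1⟩

end Vale.Agent.P032.Words6.H704
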