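import Vale.Agent.P032.S5.H555.ChordT
import Vale.Agent.P032.Words6.H704.Fact2
import Vale.Agent.P032.Words6.H46.EncD
import Vale.Agent.P032.Words6.H724.SetTab

/-!
# P032: at every generic time there is a legal word of broken pairs below the palettes

The graph of broken pairs is one of the graphs of `dats` (35 lists of letters, the same as in
`Words/H151`).  `Six6.hd`: the form of `Words6/H46/EncD`, `Six6.hdC`: the form of `Words6/H724/SetTab`.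
-/

open Set Filter Topology Metric

noncomputable section

namespace Vale.Agent.P032.Words6.H704

open Vale.Agent.P032.Six Vale.Agent.P032.S5.H767

variable {U : Fin 6 → Set ℂ} {T : ℂ → Set (Fin 6)} {z : ℂ}

theorem mc_symm {a b : Fin 6} (h : MC T z a b) : MC T z b a := by
  obtain ⟨h1, q, h2, h3⟩ := h
  exact ⟨h1.symm, q, h2, by rw [h3, Set.pair_comm]⟩

theorem dc_of_sp {M : Fin 6 → Fin 6 → Prop} (hs : ∀ a b, M a b → M b a) {P : Set (Fin 6)}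
    {l m : Fin 6} (h : SpM M P l m) : H46.DcM M P l m := by
  rintro ⟨X, Y, h1, h2, h3, h4, h5⟩
  rcases h X Y h1 h2 h3 h4 h5 with ⟨k1, k2⟩ | ⟨k1, k2⟩
  · exact ⟨X, Y, h1, h2, h5, k1, k2⟩
  · exact ⟨Y, X, by rw [Set.union_comm]; exact h1, h2.symm, fun x hx y hy => hs _ _ (h5 y hy x hx),
      k1, k2⟩

theorem op_of_chd {M : Fin 6 → Fin 6 → Prop} (hs : ∀ a b, M a b → M b a) {P Q : Set (Fin 6)}
    (h : Chd M P Q) : H46.OpM M P Q := by
  obtain ⟨l, m, ⟨h1, h2, h3, h4⟩, h5, h6⟩ := h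
  exact ⟨l, m, h1, h2, h3, h4, dc_of_sp hs h5, dc_of_sp hs h6⟩

theorem val_add_three : ∀ k : Fin 6, k.val < 3 → (k + 3).val = k.val + 3 := by decide

theorem val_add_three' : ∀ k : Fin 6, ¬ k.val < 3 → k.val = (k + 3).val + 3 := by decide

/-- the chord rule with triple arcs (555) at all pairs of antipodal times -/
theorem Six6.chd_at (C : Six6 U T z)
    (hmin : ∀ z, 4 ≤ (T z).ncard → ∀ s, s ⊆ T z → s ≠ T z →
      ¬ ∀ᶠ w in 𝓝 z, ∃ i ∈ s, w ∈ U i ∨ (w ∈ XX U ∧ i ∈ Pal U w)) {u : ℝ}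
    (hu : Gn T z u) (k : Fin 6) :
    ChdAt T z (T (pt z (u + (k.val : ℝ)))) (T (pt z (u + ((k + 3).val : ℝ)))) := by
  have e : pt z (u + ((k + 3).val : ℝ)) = pt z (u + (k.val : ℝ) + 3) := by
    rw [pt_fin3, pt_three]
  have h3 : ∀ᶠ v in 𝓝 (u + (k.val : ℝ) + 3), T (pt z v) = T (pt z (u + (k.val : ℝ) + 3)) := by
    have h1 := hu (k + 3)
    rw [e] at h1
    -- the antipodal time up to a multiple of six
    by_cases hk : k.val < 3
    · have h2 : (k + 3).val = k.val + 3 := val_add_three k hk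
      rw [h2] at h1
      have e2 : u + ((k.val + 3 : ℕ) : ℝ) = u + (k.val : ℝ) + 3 := by push_cast; ring
      rwa [e2] at h1
    · have h2 : k.val = (k + 3).val + 3 := val_add_three' k hk
      have hc : Tendsto (fun v : ℝ => v - 6) (𝓝 (u + (k.val : ℝ) + 3))
          (𝓝 (u + ((k + 3).val : ℝ))) := by
        have : Continuous fun v : ℝ => v - 6 := by fun_prop
        have h5 := this.tendsto (u + (k.val : ℝ) + 3)
        have e3 : u + (k.val : ℝ) + 3 - 6 = u + ((k + 3).val : ℝ) := by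
          have h6 : (k.val : ℝ) = ((k + 3).val : ℝ) + 3 := by exact_mod_cast h2
          rw [h6]; ring
        rwa [e3] at h5
      filter_upwards [hc.eventually h1] with v hv
      rw [← hv, ← pt_six z (v - 6)]
      congr 2; ring
  obtain ⟨l, m, ⟨a1, a2, a3, a4⟩, b1, b2⟩ := ChordT.chord_only C hmin (hu k) h3
  rw [← e] at a2 a4 b2
  refine ⟨l, m, ⟨?_, ?_⟩, ?_, ?_⟩
  · rintro (h | h)
    · exact a1 h
    · exact a2 h
  · rintro (h | h)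
    · exact a3 h
    · exact a4 h
  · intro P hP hsub hun
    exact sp_of (b1 P ⟨hP, hsub, fun x y hxy h => hun _ ⟨x, y, hxy, rfl⟩ h⟩)
  · intro P hP hsub hun
    exact sp_of (b2 P ⟨hP, hsub, fun x y hxy h => hun _ ⟨x, y, hxy, rfl⟩ h⟩)

/-- **There is a legal word at every generic time.** -/
theorem Six6.hd0 (C : Six6 U T z)
    (hmin : ∀ z, 4 ≤ (T z).ncard → ∀ s, s ⊆ T z → s ≠ T z →
      ¬ ∀ᶠ w in 𝓝 z, ∃ i ∈ s, w ∈ U i ∨ (w ∈ XX U ∧ i ∈ Pal U w)) {L : List ℕ}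
    (hL : L ∈ dats.map fun D => D.map Prod.fst) {f : Fin 6 → ℕ} (hf : Function.Injective f)
    (hf6 : ∀ i, f i < 6) (hM : ∀ a b, a ≠ b → (MC T z a b ↔ 2 ^ f a ||| 2 ^ f b ∈ L)) {u : ℝ}
    (hu : Gn T z u) :
    ∃ h : Fin 6 → Set (Fin 6), (∀ k, Let (MC T z) (h k) ∧ h k ⊆ T (pt z (u + (k.val : ℝ)))) ∧
      (∀ k, Chd (MC T z) (h k) (h (k + 3))) ∧ ∀ k, Disjoint (h k) (h (k + 1)) := by
  rw [List.mem_map] at hL
  obtain ⟨D, hD, rfl⟩ := hL
  have G : GD (MC T z) D f := ⟨hf, hf6, List.all_eq_true.1 dats_ok D hD, hM, fun a h => h.1 rfl⟩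
  obtain ⟨h, h1, h2⟩ := C.exists_word G (C.f2_of hmin G hD).2 hu (C.chd_at hmin hu)
  refine ⟨h, h1, h2, fun k => ?_⟩
  have h3 := C.disj (hu k)
  rw [← pt_fin] at h3
  exact h3.mono (h1 k).2 (h1 (k + 1)).2

/-- **There is a legal word at every generic time**, form of `Words6/H46/EncD`. -/
theorem Six6.hd (C : Six6 U T z)
    (hmin : ∀ z, 4 ≤ (T z).ncard → ∀ s, s ⊆ T z → s ≠ T z →
      ¬ ∀ᶠ w in 𝓝 z, ∃ i ∈ s, w ∈ U i ∨ (w ∈ XX U ∧ i ∈ Pal U w)) {L : List ℕ}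
    (hL : L ∈ dats.map fun D => D.map Prod.fst) {f : Fin 6 → ℕ} (hf : Function.Injective f)
    (hf6 : ∀ i, f i < 6) (hM : ∀ a b, a ≠ b → (MC T z a b ↔ 2 ^ f a ||| 2 ^ f b ∈ L)) {u : ℝ}
    (hu : Gn T z u) :
    ∃ h, H46.Leg (MC T z) h ∧ ∀ k : Fin 6, h k ⊆ T (pt z (u + (k.val : ℝ))) := by
  obtain ⟨h, h1, h2, h3⟩ := C.hd0 hmin hL hf hf6 hM hu
  refine ⟨h, ⟨fun k => ?_, h3, fun k => op_of_chd (fun _ _ => mc_symm) (h2 k)⟩, fun k => (h1 k).2⟩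
  obtain ⟨a, b, hab, h4⟩ := (h1 k).1
  exact ⟨a, b, hab.1, hab, h4⟩

/-- **There is a legal word at every generic time**, form of `Words6/H724/SetTab`. -/
theorem Six6.hdC (C : Six6 U T z)
    (hmin : ∀ z, 4 ≤ (T z).ncard → ∀ s, s ⊆ T z → s ≠ T z →
      ¬ ∀ᶠ w in 𝓝 z, ∃ i ∈ s, w ∈ U i ∨ (w ∈ XX U ∧ i ∈ Pal U w)) {L : List ℕ}
    (hL : L ∈ dats.map fun D => D.map Prod.fst) {f : Fin 6 → ℕ} (hf : Function.Injective f)
    (hf6 : ∀ i, f i < 6) (hM : ∀ a b, a ≠ b → (MC T z a b ↔ 2 ^ f a ||| 2 ^ f b ∈ L)) {u : ℝ}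
    (hu : Gn T z u) :
    ∃ h, H724.LegC (MC T z) h ∧ ∀ k : Fin 6, h k ⊆ T (pt z (u + (k.val : ℝ))) := by
  obtain ⟨h, h1, h2, h3⟩ := C.hd0 hmin hL hf hf6 hM hu
  refine ⟨h, ⟨fun k => (h1 k).1, h3, fun k => ?_⟩, fun k => (h1 k).2⟩
  obtain ⟨l, m, ⟨k1, k2, k3, k4⟩, k5, k6⟩ := h2 k
  refine ⟨l, m, ?_, ?_, k5, k6⟩
  · rintro (h | h)
    · exact k1 h
    · exact k2 h
  · rintro (h | h)
    · exact k3 h
    · exact k4 h

end Vale.Agent.P032.Words6.H704
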