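import Vale.Agent.P032.S5.H843.Hand6
import Vale.Agent.P032.S5.H555.Cut
import Vale.Agent.P032.Words6.H704.Hd

/-!
# P032: a clean point with six colours: the properties of the graph of broken pairs
-/

open Set Filter Topology Metric

noncomputable section

namespace Vale.Agent.P032.Words6.H704

open Vale.Agent.P032.Six Vale.Agent.P032.S5.H767

variable {U : Fin 6 → Set ℂ} {T : ℂ → Set (Fin 6)} {z : ℂ}

theorem six_of (h : Irr U T) (h6 : (T z).ncard = 6) (hcl : ∀ y, dist y z = 1 → (T y).ncard ≤ 3) :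
    Six6 U T z := by
  have huniv : T z = univ := by
    refine Set.eq_of_subset_of_ncard_le (subset_univ _)
      (by rw [h6, Set.ncard_univ, Nat.card_eq_fintype_card, Fintype.card_fin]) (Set.toFinite _)
  exact ⟨h, fun i => huniv ▸ mem_univ i, hcl⟩

theorem Six6.univ_eq (C : Six6 U T z) : T z = univ := Set.eq_univ_of_forall C.all

/-- no colour is joined to all other colours but one -/
theorem Six6.mc_deg (C : Six6 U T z)
    (hmin : ∀ z, 4 ≤ (T z).ncard → ∀ s, s ⊆ T z → s ≠ T z →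
      ¬ ∀ᶠ w in 𝓝 z, ∃ i ∈ s, w ∈ U i ∨ (w ∈ XX U ∧ i ∈ Pal U w)) (v u : Fin 6) (hvu : v ≠ u) :
    ¬ ∀ w, w ≠ v → w ≠ u → MC T z v w := fun hall =>
  C.irr.degree hmin (by rw [C.card6]; norm_num) (C.all v) (C.all u) hvu
    fun j _ h1 h2 => (hall j h1 h2).2

/-- a relation between all colours but at most one is not complete bipartite -/
theorem Six6.mc_cut (C : Six6 U T z)
    (hmin : ∀ z, 4 ≤ (T z).ncard → ∀ s, s ⊆ T z → s ≠ T z →
      ¬ ∀ᶠ w in 𝓝 z, ∃ i ∈ s, w ∈ U i ∨ (w ∈ XX U ∧ i ∈ Pal U w)) (X Y : Set (Fin 6))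
    (hX : X.Nonempty) (hY : Y.Nonempty) (hXY : Disjoint X Y) (h5 : 5 ≤ (X ∪ Y).ncard) :
    ¬ ∀ x ∈ X, ∀ y ∈ Y, MC T z x y := by
  -- the smaller part first
  have key : ∀ X Y : Set (Fin 6), X.Nonempty → Y.Nonempty → Disjoint X Y →
      5 ≤ (X ∪ Y).ncard → X.ncard ≤ Y.ncard → ¬ ∀ x ∈ X, ∀ y ∈ Y, MC T z x y := by
    intro X Y hX hY hXY h5 hle hall
    have hsum := Set.ncard_union_eq hXY (Set.toFinite _) (Set.toFinite _)
    have hle6 : (X ∪ Y).ncard ≤ 6 := by
      have h1 := Set.ncard_le_ncard (subset_univ (X ∪ Y)) (Set.toFinite _)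
      rwa [Set.ncard_univ, Nat.card_eq_fintype_card, Fintype.card_fin] at h1
    have h4 : 4 ≤ (T z).ncard := by rw [C.card6]; norm_num
    by_cases h6 : (X ∪ Y).ncard = 6
    · have huniv : X ∪ Y = univ := by
        refine Set.eq_of_subset_of_ncard_le (subset_univ _)
          (by rw [h6, Set.ncard_univ, Nat.card_eq_fintype_card, Fintype.card_fin]) (Set.toFinite _)
      have hYm : ∀ i, i ∉ X → i ∈ Y := fun i hi => by
        have : i ∈ X ∪ Y := by rw [huniv]; exact mem_univ _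
        exact this.resolve_left hi
      obtain h1 | h1 | h1 : X.ncard = 1 ∨ X.ncard = 2 ∨ X.ncard = 3 := by
        have := (Set.ncard_pos (Set.toFinite X)).2 hX
        omega
      · obtain ⟨a, rfl⟩ := Set.ncard_eq_one.1 h1
        obtain ⟨b, hb⟩ := hY
        have hab : a ≠ b := fun h => Set.disjoint_left.1 hXY (mem_singleton a) (h ▸ hb)
        exact C.mc_deg hmin a b hab fun w hw _ => hall a rfl w (hYm w hw)
      · obtain ⟨a, b, hab, rfl⟩ := Set.ncard_eq_two.1 h1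
        exact C.mc_deg hmin a b hab fun w hw hw' => hall a (Or.inl rfl) w (hYm w (by
          rintro (h | h)
          · exact hw h
          · exact hw' h))
      · refine C.irr.no_k33 hmin (A := X) (B := Y) ?_ hXY h1 (by omega)
          fun a ha b hb => (hall a ha b hb).2
        rw [huniv]; exact C.univ_eq
    · -- one colour is missing
      have h7 : ((X ∪ Y)ᶜ).ncard = 1 := by
        have h8 := Set.ncard_add_ncard_compl (X ∪ Y) (Set.toFinite _) (Set.toFinite _)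
        rw [Nat.card_eq_fintype_card, Fintype.card_fin] at h8
        omega
      obtain ⟨x, hx⟩ := Set.ncard_eq_one.1 h7
      have hxn : x ∉ X ∪ Y := by
        have : x ∈ (X ∪ Y)ᶜ := by rw [hx]; rfl
        exact this
      refine C.irr.no_cut hmin (x := x) (A := X) (B := Y) h4 ?_ (fun h => hxn (Or.inl h))
        (fun h => hxn (Or.inr h)) hXY hX hY (by omega) fun a ha b hb => (hall a ha b hb).2
      rw [C.univ_eq]
      symm
      rw [Set.eq_univ_iff_forall]
      intro i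
      by_cases hi : i ∈ X ∪ Y
      · exact Or.inr hi
      · have : i ∈ (X ∪ Y)ᶜ := hi
        rw [hx] at this
        exact Or.inl this
  rcases le_total X.ncard Y.ncard with h1 | h1
  · exact key X Y hX hY hXY h5 h1
  · intro hall
    exact key Y X hY hX hXY.symm (by rw [Set.union_comm]; exact h5) h1
      fun y hy x hx => mc_symm (hall x hx y hy)

/-- every colour is in a letter -/
theorem mc_act (hact : ∀ i, ∃ q, dist q z = 1 ∧ i ∈ T q ∧ (T q).ncard = 2) (a : Fin 6) :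
    ∃ b, MC T z a b := by
  obtain ⟨q, hq, ha, h2⟩ := hact a
  obtain ⟨x, y, hxy, hT⟩ := Set.ncard_eq_two.1 h2
  rw [hT] at ha
  rcases ha with rfl | ha
  · exact ⟨y, hxy, q, hq, hT⟩
  · have ha : a = y := ha
    subst ha
    exact ⟨x, hxy.symm, q, hq, by rw [hT, Set.pair_comm]⟩

/-- **The start**: everything about the graph of broken pairs -/
theorem start (h : Irr U T)
    (hmin : ∀ z, 4 ≤ (T z).ncard → ∀ s, s ⊆ T z → s ≠ T z →
      ¬ ∀ᶠ w in 𝓝 z, ∃ i ∈ s, w ∈ U i ∨ (w ∈ XX U ∧ i ∈ Pal U w)) (h6 : (T z).ncard = 6)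
    (hcl : ∀ y, dist y z = 1 → (T y).ncard ≤ 3)
    (hact : ∀ i, ∃ q, dist q z = 1 ∧ i ∈ T q ∧ (T q).ncard = 2) :
    Six6 U T z ∧ (∀ a b, MC T z a b → MC T z b a) ∧ (∀ a, ¬ MC T z a a) ∧
      (∀ a, ∃ b, MC T z a b) ∧ (∀ v u, v ≠ u → ¬ ∀ w, w ≠ v → w ≠ u → MC T z v w) ∧
      ∀ X Y : Set (Fin 6), X.Nonempty → Y.Nonempty → Disjoint X Y → 5 ≤ (X ∪ Y).ncard →
        ¬ ∀ x ∈ X, ∀ y ∈ Y, MC T z x y := by
  have C := six_of h h6 hcl
  exact ⟨C, fun _ _ => mc_symm, fun a h => h.1 rfl, mc_act hact, C.mc_deg hmin, C.mc_cut hmin⟩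

end Vale.Agent.P032.Words6.H704
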