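import Vale.Agent.P032.Words6.H704.Gen6

/-!
# P032: a six-coloured centre with a clean circle: the box at a break

`Brk T z cmp u`: the values of the invariant at generic times near `u` are not all the same.
`Six6.exists_box`: there is a break `u` such that every break near `u` has the same six palettes as
`u`, and every value `c` which occurs near `u` is the only value on one side of some break `b`
arbitrarily near `u`; at least two values occur near `u`.
-/

open Set Filter Topology Metric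

noncomputable section

namespace Vale.Agent.P032.Words6.H704

open Vale.Agent.P032.Six Vale.Agent.P032.S5.H767

variable {U : Fin 6 → Set ℂ} {T : ℂ → Set (Fin 6)} {z : ℂ} {cmp : (Fin 6 → Set (Fin 6)) → ℕ}

/-- a break -/
def Brk (T : ℂ → Set (Fin 6)) (z : ℂ) (cmp : (Fin 6 → Set (Fin 6)) → ℕ) (u : ℝ) : Prop :=
  ∀ c, ¬ ∀ᶠ v in 𝓝 u, Gn T z v → val T z cmp v = c

/-- the value `c` occurs near `u` -/
def Occ (T : ℂ → Set (Fin 6)) (z : ℂ) (cmp : (Fin 6 → Set (Fin 6)) → ℕ) (u : ℝ) (c : ℕ) : Prop :=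
  ∃ᶠ v in 𝓝 u, Gn T z v ∧ val T z cmp v = c

theorem brk_closed : IsClosed {u : ℝ | Brk T z cmp u} := by
  rw [← isOpen_compl_iff, isOpen_iff_mem_nhds]
  intro u hu
  have hu : ¬ Brk T z cmp u := hu
  unfold Brk at hu
  push Not at hu
  obtain ⟨c, hc⟩ := hu
  filter_upwards [eventually_eventually_nhds.2 hc] with v hv hv2
  exact hv2 c hv

theorem Six6.not_brk (C : Six6 U T z) (hinv : InvM (MC T z) cmp) {u : ℝ} (hu : Gn T z u) :
    ¬ Brk T z cmp u := fun h => h (val T z cmp u) ((C.val_const hinv hu).mono fun _ hv _ => hv)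

/-- on an interval without breaks the value is constant -/
theorem Six6.val_Ico (C : Six6 U T z) {s : Set ℝ} (hs : IsPreconnected s)
    (hso : ∀ x ∈ s, ¬ Brk T z cmp x) {v w : ℝ} (hv : v ∈ s) (hw : w ∈ s)
    (hv2 : Gn T z v) (hw2 : Gn T z w) : val T z cmp v = val T z cmp w := by
  have h1 : ∀ x : ℝ, ∃ c, x ∈ s → ∀ᶠ y in 𝓝 x, Gn T z y → val T z cmp y = c := by
    intro x
    by_cases hx : x ∈ s
    · have h2 := hso x hx
      unfold Brk at h2
      push Not at h2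
      obtain ⟨c, hc⟩ := h2
      exact ⟨c, fun _ => hc⟩
    · exact ⟨0, fun h => absurd h hx⟩
  choose c hc using h1
  have hcont : ContinuousOn c s := by
    intro x hx
    have h2 : ∀ᶠ y in 𝓝[s] x, c y = c x := by
      have h3 : ∀ᶠ y in 𝓝[s] x, ∀ᶠ w in 𝓝 y, Gn T z w → val T z cmp w = c x :=
        (eventually_eventually_nhds.2 (hc x hx)).filter_mono nhdsWithin_le_nhds
      filter_upwards [h3, self_mem_nhdsWithin] with y hy hys
      obtain ⟨w, ⟨hw1, hw2⟩, hw3⟩ := ((hy.and (hc y hys)).and_frequently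
        (mem_closure_iff_frequently.1 (C.gn_dense y))).exists
      rw [← hw2 hw3, hw1 hw3]
    have h4 : Tendsto c (𝓝[s] x) (pure (c x)) := by rw [tendsto_pure]; exact h2
    exact h4.mono_right (pure_le_nhds _)
  have h2 := hs.constant hcont hv hw
  rw [(hc v hv).self_of_nhds hv2, (hc w hw).self_of_nhds hw2, h2]

/-- control of a value on one side -/
theorem Six6.control (C : Six6 U T z) (hinv : InvM (MC T z) cmp) {u v : ℝ} (hu : Brk T z cmp u)
    (hv : Gn T z v) : ∃ b, Brk T z cmp b ∧ |b - u| ≤ |v - u| ∧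
      ((∀ᶠ w in 𝓝[<] b, Gn T z w → val T z cmp w = val T z cmp v) ∨
        ∀ᶠ w in 𝓝[>] b, Gn T z w → val T z cmp w = val T z cmp v) := by
  have hne : v ≠ u := by
    rintro rfl
    exact C.not_brk hinv hv hu
  rcases lt_or_gt_of_ne hne with h1 | h1
  · -- the first break after `v`
    set E : Set ℝ := {x | Brk T z cmp x} ∩ Icc v u with hE
    have hEc : IsClosed E := brk_closed.inter isClosed_Icc
    have hEne : E.Nonempty := ⟨u, hu, h1.le, le_rfl⟩
    have hEb : BddBelow E := ⟨v, fun x hx => hx.2.1⟩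
    have hb : sInf E ∈ E := hEc.csInf_mem hEne hEb
    have hvb : v < sInf E := by
      refine lt_of_le_of_ne hb.2.1 fun h2 => ?_
      exact C.not_brk hinv hv (h2 ▸ hb.1)
    refine ⟨sInf E, hb.1, ?_, Or.inl ?_⟩
    · rw [abs_of_nonpos (sub_nonpos.2 hb.2.2), abs_of_nonpos (sub_nonpos.2 h1.le)]
      linarith
    · have h3 : ∀ x ∈ Ico v (sInf E), ¬ Brk T z cmp x := by
        intro x hx hx2
        exact absurd (csInf_le hEb (show x ∈ E from ⟨hx2, hx.1, hx.2.le.trans hb.2.2⟩))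
          (not_le.2 hx.2)
      filter_upwards [Ioo_mem_nhdsLT hvb] with w hw hw2
      exact C.val_Ico isPreconnected_Ico h3 ⟨hw.1.le, hw.2⟩ ⟨le_rfl, hvb⟩ hw2 hv
  · set E : Set ℝ := {x | Brk T z cmp x} ∩ Icc u v with hE
    have hEc : IsClosed E := brk_closed.inter isClosed_Icc
    have hEne : E.Nonempty := ⟨u, hu, le_rfl, h1.le⟩
    have hEb : BddAbove E := ⟨v, fun x hx => hx.2.2⟩
    have hb : sSup E ∈ E := hEc.csSup_mem hEne hEb
    have hvb : sSup E < v := by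
      refine lt_of_le_of_ne hb.2.2 fun h2 => ?_
      exact C.not_brk hinv hv (h2 ▸ hb.1)
    refine ⟨sSup E, hb.1, ?_, Or.inr ?_⟩
    · rw [abs_of_nonneg (sub_nonneg.2 hb.2.1), abs_of_nonneg (sub_nonneg.2 h1.le)]
      linarith
    · have h3 : ∀ x ∈ Ioc (sSup E) v, ¬ Brk T z cmp x := by
        intro x hx hx2
        exact absurd (le_csSup hEb (show x ∈ E from ⟨hx2, hb.2.1.trans hx.1.le, hx.2⟩))
          (not_le.2 hx.1)
      filter_upwards [Ioo_mem_nhdsGT hvb] with w hw hw2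
      exact C.val_Ico isPreconnected_Ioc h3 ⟨hw.1, hw.2.le⟩ ⟨hvb, le_rfl⟩ hw2 hv

/-- two values occur near a break -/
theorem Six6.two_occ (C : Six6 U T z) {u : ℝ} (hu : Brk T z cmp u) :
    ∃ c c', c ≠ c' ∧ Occ T z cmp u c ∧ Occ T z cmp u c' := by
  -- finitely many values
  have hfin : (range (val T z cmp)).Finite := by
    have h1 : (insert 0 (range cmp)).Finite := (finite_range cmp).insert 0
    refine h1.subset ?_
    rintro _ ⟨v, rfl⟩
    unfold val
    split_ifs with h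
    · exact Or.inr ⟨_, rfl⟩
    · exact Or.inl rfl
  have key : ∀ S : Set ℕ, S.Finite → (∃ᶠ v in 𝓝 u, Gn T z v ∧ val T z cmp v ∈ S) →
      ∃ c ∈ S, Occ T z cmp u c := by
    intro S hS hfr
    by_contra hcon
    push Not at hcon
    have h1 : ∀ c ∈ S, ∀ᶠ v in 𝓝 u, ¬ (Gn T z v ∧ val T z cmp v = c) := fun c hc =>
      Filter.not_frequently.1 (hcon c hc)
    have h2 := (Filter.eventually_all_finite hS).2 h1
    obtain ⟨v, ⟨hv1, hv2⟩, hv3⟩ := (hfr.and_eventually h2).exists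
    exact hv3 _ hv2 ⟨hv1, rfl⟩
  obtain ⟨c, -, hc⟩ := key _ hfin ((mem_closure_iff_frequently.1 (C.gn_dense u)).mono
    fun v hv => ⟨hv, v, rfl⟩)
  obtain ⟨c', hc', hc2⟩ := key (range (val T z cmp) \ {c}) hfin.sdiff (by
    have h1 := Filter.not_eventually.1 (hu c)
    refine h1.mono fun v hv => ?_
    rw [Classical.not_imp] at hv
    exact ⟨hv.1, ⟨v, rfl⟩, hv.2⟩)
  exact ⟨c, c', fun h => hc'.2 h.symm, hc, hc2⟩

/-- **The box.** -/
theorem Six6.exists_box (C : Six6 U T z) (hinv : InvM (MC T z) cmp)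
    (hrot : ∀ h, LegM (MC T z) h → cmp (fun k => h (k + 1)) ≠ cmp h) :
    ∃ u : ℝ, Brk T z cmp u ∧ (∃ c c', c ≠ c' ∧ Occ T z cmp u c ∧ Occ T z cmp u c') ∧
      (∀ᶠ b in 𝓝 u, Brk T z cmp b → ∀ k : Fin 6, T (pt z (b + (k.val : ℝ))) =
        T (pt z (u + (k.val : ℝ)))) ∧
      ∀ c, Occ T z cmp u c → ∀ ε > 0, ∃ b, Brk T z cmp b ∧ |b - u| < ε ∧
        (∀ k : Fin 6, T (pt z (b + (k.val : ℝ))) = T (pt z (u + (k.val : ℝ)))) ∧
        ((∀ᶠ w in 𝓝[<] b, Gn T z w → val T z cmp w = c) ∨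
          ∀ᶠ w in 𝓝[>] b, Gn T z w → val T z cmp w = c) := by
  obtain ⟨u0, hu0⟩ := C.exists_break hinv hrot
  set f : ℝ → ℕ := fun v => ∑ k : Fin 6, (T (pt z (v + (k.val : ℝ)))).ncard with hf
  obtain ⟨_, ⟨u, hu, rfl⟩, hmin⟩ := WellFounded.has_min (r := ((· < ·) : ℕ → ℕ → Prop))
    wellFounded_lt (f '' {u | Brk T z cmp u}) ⟨_, u0, hu0, rfl⟩
  have hu : Brk T z cmp u := hu
  have hbox : ∀ᶠ b in 𝓝 u, Brk T z cmp b → ∀ k : Fin 6, T (pt z (b + (k.val : ℝ))) =
        T (pt z (u + (k.val : ℝ))) := by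
    have h1 : ∀ᶠ b in 𝓝 u, ∀ k : Fin 6, T (pt z (b + (k.val : ℝ))) ⊆
        T (pt z (u + (k.val : ℝ))) := by
      rw [eventually_all]
      intro k
      have hc : Continuous fun v : ℝ => pt z (v + (k.val : ℝ)) :=
        (continuous_pt z).comp (by fun_prop)
      exact (hc.tendsto u).eventually (C.irr.nhd _)
    filter_upwards [h1] with b hb hb2
    have h3 : f u ≤ f b := not_lt.1 (hmin _ ⟨b, hb2, rfl⟩)
    have h4 : ∀ k : Fin 6, (T (pt z (b + (k.val : ℝ)))).ncard ≤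
        (T (pt z (u + (k.val : ℝ)))).ncard := fun k =>
      Set.ncard_le_ncard (hb k) (Set.toFinite _)
    intro k
    refine Set.eq_of_subset_of_ncard_le (hb k) ?_ (Set.toFinite _)
    by_contra hne
    have h6 : f b < f u := Finset.sum_lt_sum (fun k _ => h4 k)
      ⟨k, Finset.mem_univ k, by omega⟩
    omega
  refine ⟨u, hu, C.two_occ hu, hbox, ?_⟩
  intro c hc ε hε
  obtain ⟨δ, hδ, hδ2⟩ := Metric.eventually_nhds_iff.1 hbox
  obtain ⟨v, ⟨hv1, hv2⟩, hv3⟩ := (hc.and_eventually (ball_mem_nhds u (lt_min hε hδ))).exists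
  have hv3 : |v - u| < min ε δ := by rw [← Real.dist_eq]; exact hv3
  obtain ⟨b, hb1, hb2, hb3⟩ := C.control hinv hu hv1
  refine ⟨b, hb1, lt_of_le_of_lt hb2 (lt_of_lt_of_le hv3 (min_le_left _ _)), ?_, ?_⟩
  · refine hδ2 ?_ hb1
    rw [Real.dist_eq]
    exact lt_of_le_of_lt hb2 (lt_of_lt_of_le hv3 (min_le_right _ _))
  · rw [← hv2]; exact hb3

end Vale.Agent.P032.Words6.H704
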