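import Vale.Agent.P032.Words6.H704.Cover
import Vale.Agent.P032.Words.Engine

/-!
# The table of a six-coloured centre for an arbitrary contact graph

`M` is a symmetric relation on the six colours such that no colour is joined to all but one of the other
colours, and which does not contain all nine pairs between two triples of colours.  Words: six letters
`{a, b}` with `M a b`, neighbours disjoint.  There is an invariant of the moves of `Six6` which is not
invariant under the rotation.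
-/

namespace Vale.Agent.P032.Words6.H704

open Vale.Agent.P032.Words.Bits

theorem cover {h : ℕ → ℕ} (hh : ∀ j < 15, h j < 2) :
    (∃ c ∈ vu, ∀ j < 15, badA c.1 c.2 j (h j) = true) ∨
    (∃ c ∈ tri, ∀ j < 15, sepA c j (h j) = true) ∨
    (∃ c ∈ prismC, ∀ j < 15, cA Prism.L c j (h j) = true) ∨
    (∃ c ∈ k33mC, ∀ j < 15, cA K33m.L c j (h j) = true) ∨
    (∃ c ∈ k42C, ∀ j < 15, cA K42.L c j (h j) = true) ∨
    (∃ c ∈ d22C, ∀ j < 15, cA D22.L c j (h j) = true) ∨
    (∃ c ∈ d1C, ∀ j < 15, cA D1.L c j (h j) = true) := by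
  have hF : (cyl 2 (fun _ _ => true) 15).testBit (code 2 h 15) = true :=
    (cyl_testBit hh).2 fun _ _ => rfl
  have heq := chkCov_eq
  unfold chkCov at heq
  rw [← Nat.eq_of_beq_eq_true heq, Nat.testBit_or, Nat.testBit_or, Nat.testBit_or, Nat.testBit_or,
    Nat.testBit_or, Nat.testBit_or, Bool.or_eq_true, Bool.or_eq_true, Bool.or_eq_true,
    Bool.or_eq_true, Bool.or_eq_true, Bool.or_eq_true] at hF
  rcases hF with (((((h1 | h1) | h1) | h1) | h1) | h1) | h1
  · obtain ⟨A, hA, h2⟩ := un_testBit h1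
    rw [List.mem_map] at hA
    obtain ⟨c, hc, rfl⟩ := hA
    exact Or.inl ⟨c, hc, (cyl_testBit hh).1 h2⟩
  · obtain ⟨A, hA, h2⟩ := un_testBit h1
    rw [List.mem_map] at hA
    obtain ⟨c, hc, rfl⟩ := hA
    exact Or.inr (Or.inl ⟨c, hc, (cyl_testBit hh).1 h2⟩)
  · obtain ⟨A, hA, h2⟩ := un_testBit h1
    rw [List.mem_map] at hA
    obtain ⟨c, hc, rfl⟩ := hA
    exact Or.inr (Or.inr (Or.inl ⟨c, hc, (cyl_testBit hh).1 h2⟩))
  · obtain ⟨A, hA, h2⟩ := un_testBit h1
    rw [List.mem_map] at hA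
    obtain ⟨c, hc, rfl⟩ := hA
    exact Or.inr (Or.inr (Or.inr (Or.inl ⟨c, hc, (cyl_testBit hh).1 h2⟩)))
  · obtain ⟨A, hA, h2⟩ := un_testBit h1
    rw [List.mem_map] at hA
    obtain ⟨c, hc, rfl⟩ := hA
    exact Or.inr (Or.inr (Or.inr (Or.inr (Or.inl ⟨c, hc, (cyl_testBit hh).1 h2⟩))))
  · obtain ⟨A, hA, h2⟩ := un_testBit h1
    rw [List.mem_map] at hA
    obtain ⟨c, hc, rfl⟩ := hA
    exact Or.inr (Or.inr (Or.inr (Or.inr (Or.inr (Or.inl ⟨c, hc, (cyl_testBit hh).1 h2⟩)))))
  · obtain ⟨A, hA, h2⟩ := un_testBit h1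
    rw [List.mem_map] at hA
    obtain ⟨c, hc, rfl⟩ := hA
    exact Or.inr (Or.inr (Or.inr (Or.inr (Or.inr (Or.inr ⟨c, hc, (cyl_testBit hh).1 h2⟩)))))

theorem mem_of_memb {x : ℕ} : ∀ {l : List ℕ}, memb l x = true → x ∈ l
  | [], h => absurd h (by simp [memb])
  | a :: l, h => by
    have h' : (Nat.beq a x || memb l x) = true := h
    rw [Bool.or_eq_true] at h'
    rcases h' with h1 | h1
    · rw [Nat.eq_of_beq_eq_true h1]; exact List.mem_cons_self
    · exact List.mem_cons_of_mem _ (mem_of_memb h1)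

theorem pair_pos : ∀ a b : Fin 6, a ≠ b → ∃ j < 15, pp.getD j (0, 0) = (a.val, b.val) ∨
    pp.getD j (0, 0) = (b.val, a.val) := by decide

/-- the graph as a word of zeros and ones -/
noncomputable def wd (M : Fin 6 → Fin 6 → Prop) (j : ℕ) : ℕ :=
  open Classical in if M (Fin.ofNat 6 (pp.getD j (0, 0)).1) (Fin.ofNat 6 (pp.getD j (0, 0)).2) then 1 else 0

theorem wd_lt (M : Fin 6 → Fin 6 → Prop) (j : ℕ) : wd M j < 2 := by
  unfold wd
  split_ifs <;> omega

theorem ofNat_val (a : Fin 6) : Fin.ofNat 6 a.val = a := by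
  revert a; decide

/-- position of a pair -/
theorem wd_eq {M : Fin 6 → Fin 6 → Prop} (hs : ∀ a b, M a b → M b a) {a b : Fin 6} (hab : a ≠ b) :
    ∃ j < 15, (pp.getD j (0, 0) = (a.val, b.val) ∨ pp.getD j (0, 0) = (b.val, a.val)) ∧
      (wd M j = 1 ↔ M a b) := by
  obtain ⟨j, hj, h1⟩ := pair_pos a b hab
  refine ⟨j, hj, h1, ?_⟩
  unfold wd
  rcases h1 with h1 | h1
  · have e1 : Fin.ofNat 6 (pp.getD j (0, 0)).1 = a := by rw [h1]; exact ofNat_val a
    have e2 : Fin.ofNat 6 (pp.getD j (0, 0)).2 = b := by rw [h1]; exact ofNat_val b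
    rw [e1, e2]
    constructor
    · intro h2
      by_contra h3
      rw [if_neg h3] at h2
      exact absurd h2 (by norm_num)
    · intro h2; rw [if_pos h2]
  · have e1 : Fin.ofNat 6 (pp.getD j (0, 0)).1 = b := by rw [h1]; exact ofNat_val b
    have e2 : Fin.ofNat 6 (pp.getD j (0, 0)).2 = a := by rw [h1]; exact ofNat_val a
    rw [e1, e2]
    constructor
    · intro h2
      by_contra h3
      rw [if_neg (fun h4 => h3 (hs _ _ h4))] at h2
      exact absurd h2 (by norm_num)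
    · intro h2; rw [if_pos (hs _ _ h2)]

theorem cA_spec {M : Fin 6 → Fin 6 → Prop} (hs : ∀ a b, M a b → M b a) (hi : ∀ a, ¬ M a a)
    {L : List ℕ} {c : ℕ} (hc : ∀ j < 15, cA L c j (wd M j) = true) {a b : Fin 6} (hab : M a b) :
    2 ^ dg c a.val ||| 2 ^ dg c b.val ∈ L := by
  have hne : a ≠ b := by
    rintro rfl
    exact hi _ hab
  obtain ⟨j, hj, h1, h2⟩ := wd_eq hs hne
  have h3 := hc j hj
  rw [h2.2 hab] at h3
  have h4 : memb L (2 ^ dg c (pp.getD j (0, 0)).1 ||| 2 ^ dg c (pp.getD j (0, 0)).2) = true := h3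
  have h5 := mem_of_memb h4
  rcases h1 with h1 | h1
  · rw [h1] at h5; exact h5
  · rw [h1] at h5; rw [Nat.lor_comm]; exact h5

theorem badA_spec {M : Fin 6 → Fin 6 → Prop} (hs : ∀ a b, M a b → M b a) {v u : Fin 6}
    (hc : ∀ j < 15, badA v.val u.val j (wd M j) = true) {w : Fin 6} (hwv : w ≠ v) (hwu : w ≠ u) :
    M v w := by
  obtain ⟨j, hj, h1, h2⟩ := wd_eq hs (a := v) (b := w) (Ne.symm hwv)
  rw [← h2]
  have h3 := hc j hj
  have key : ((Nat.beq (pp.getD j (0, 0)).1 v.val && !(Nat.beq (pp.getD j (0, 0)).2 u.val)) ||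
    (Nat.beq (pp.getD j (0, 0)).2 v.val && !(Nat.beq (pp.getD j (0, 0)).1 u.val))) = true := by
    have e1 : Nat.beq v.val v.val = true := by simp
    have e2 : Nat.beq w.val u.val = false := by
      cases h4 : Nat.beq w.val u.val with
      | false => rfl
      | true => exact absurd (Fin.ext (Nat.eq_of_beq_eq_true h4)) hwu
    rcases h1 with h1 | h1
    · rw [h1]
      simp only [e1, e2]
      rfl
    · rw [h1]
      simp only [e1, e2]
      simp
  unfold badA at h3
  rw [key, Bool.not_true, Bool.or_false] at h3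
  exact Nat.eq_of_beq_eq_true h3

theorem sepA_spec {M : Fin 6 → Fin 6 → Prop} (hs : ∀ a b, M a b → M b a) {c : ℕ}
    (hc : ∀ j < 15, sepA c j (wd M j) = true) {a b : Fin 6}
    (hab : (c >>> a.val) &&& 1 ≠ (c >>> b.val) &&& 1) : M a b := by
  have hne : a ≠ b := by
    rintro rfl
    exact hab rfl
  obtain ⟨j, hj, h1, h2⟩ := wd_eq hs hne
  rw [← h2]
  have h3 := hc j hj
  have key : Nat.beq ((c >>> (pp.getD j (0, 0)).1) &&& 1) ((c >>> (pp.getD j (0, 0)).2) &&& 1)
      = false := by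
    rcases h1 with h1 | h1
    · rw [h1]
      cases h4 : Nat.beq ((c >>> a.val) &&& 1) ((c >>> b.val) &&& 1) with
      | false => rfl
      | true => exact absurd (Nat.eq_of_beq_eq_true h4) hab
    · rw [h1]
      cases h4 : Nat.beq ((c >>> b.val) &&& 1) ((c >>> a.val) &&& 1) with
      | false => rfl
      | true => exact absurd (Nat.eq_of_beq_eq_true h4).symm hab
  unfold sepA at h3
  rw [key, Bool.or_false] at h3
  exact Nat.eq_of_beq_eq_true h3

/-- an injective relabelling -/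
theorem inj_of {l : List ℕ} (h : chkInj l = true) {c : ℕ} (hc : c ∈ l) :
    Function.Injective fun a : Fin 6 => dg c a.val := by
  unfold chkInj at h
  rw [List.all_eq_true] at h
  have h1 := h c hc
  rw [List.all_eq_true] at h1
  intro a b hab
  have hab' : dg c a.val = dg c b.val := hab
  have hall : ∀ x : Fin 6, x.val ∈ [0, 1, 2, 3, 4, 5] := by decide
  have ha := hall a
  have hb := hall b
  have h2 := h1 a.val ha
  rw [Bool.and_eq_true, List.all_eq_true] at h2
  have h3 := h2.2 b.val hb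
  rw [hab', Bool.or_eq_true] at h3
  rcases h3 with h3 | h3
  · exact Fin.ext (Nat.eq_of_beq_eq_true h3)
  · simp at h3

/-! ### Transport -/

/-- legal words over the graph `M` -/
def LegM (M : Fin 6 → Fin 6 → Prop) (h : Fin 6 → Set (Fin 6)) : Prop :=
  (∀ k, ∃ a b, M a b ∧ h k = {a, b}) ∧ ∀ k, Disjoint (h k) (h (k + 1))

/-- the conclusion of the tables -/
def TabL (L : List ℕ) : Prop := ∃ cmp : (ℕ → ℕ) → ℕ,
  (∀ h, Leg L.length 6 (cs6 L) h → cmp (rot 6 h) ≠ cmp h) ∧
    ∀ h k b, k < 6 → Leg L.length 6 (cs6 L) h → Leg L.length 6 (cs6 L) (Function.update h k b) →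
      Words.Bits.mt (L.getD (h k) 0) (L.getD b 0) = true →
      Words.Bits.mt (L.getD (h ((k + 3) % 6)) 0) (L.getD (h k) 0 ||| L.getD b 0) = true →
      cmp (Function.update h k b) = cmp h

/-- the conclusion for a graph -/
def TabM (M : Fin 6 → Fin 6 → Prop) : Prop := ∃ cmp : (Fin 6 → Set (Fin 6)) → ℕ,
  (∀ h, LegM M h → cmp (fun k => h (k + 1)) ≠ cmp h) ∧
    ∀ h k Q, LegM M h → LegM M (Function.update h k Q) → (h k ∩ Q).Nonempty →
      (h (k + 3) ∩ (h k ∪ Q)).Nonempty → cmp (Function.update h k Q) = cmp h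

theorem mt_iff {x y : ℕ} : Words.Bits.mt x y = true ↔ ∃ i, x.testBit i = true ∧ y.testBit i = true := by
  unfold Words.Bits.mt
  constructor
  · intro h
    have h1 : x &&& y ≠ 0 := by
      intro h2
      rw [h2] at h
      exact absurd h (by decide)
    obtain ⟨i, hi⟩ := Nat.exists_testBit_of_ne_zero h1
    rw [Nat.testBit_and, Bool.and_eq_true] at hi
    exact ⟨i, hi⟩
  · rintro ⟨i, h1, h2⟩
    cases h3 : Nat.beq (x &&& y) 0 with
    | false => rfl
    | true =>
      have h4 := Nat.eq_of_beq_eq_true h3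
      have h5 : (x &&& y).testBit i = true := by rw [Nat.testBit_and, h1, h2]; rfl
      rw [h4, Nat.zero_testBit] at h5
      exact absurd h5 (by simp)

/-- `m` is the mask of the set `P` -/
def IsMask (f : Fin 6 → ℕ) (P : Set (Fin 6)) (m : ℕ) : Prop :=
  ∀ i, m.testBit i = true ↔ ∃ a ∈ P, f a = i

theorem isMask_pair (f : Fin 6 → ℕ) (a b : Fin 6) : IsMask f {a, b} (2 ^ f a ||| 2 ^ f b) := by
  intro i
  rw [Nat.testBit_or, Bool.or_eq_true, Nat.testBit_two_pow, Nat.testBit_two_pow,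
    decide_eq_true_iff, decide_eq_true_iff]
  constructor
  · rintro (h | h)
    · exact ⟨a, Or.inl rfl, h⟩
    · exact ⟨b, Or.inr rfl, h⟩
  · rintro ⟨c, rfl | rfl, h⟩
    · exact Or.inl h
    · exact Or.inr h

theorem IsMask.union {f : Fin 6 → ℕ} {P Q : Set (Fin 6)} {m n : ℕ} (hm : IsMask f P m)
    (hn : IsMask f Q n) : IsMask f (P ∪ Q) (m ||| n) := by
  intro i
  rw [Nat.testBit_or, Bool.or_eq_true, hm i, hn i]
  constructor
  · rintro (⟨a, ha, h⟩ | ⟨a, ha, h⟩)
    · exact ⟨a, Or.inl ha, h⟩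
    · exact ⟨a, Or.inr ha, h⟩
  · rintro ⟨a, ha | ha, h⟩
    · exact Or.inl ⟨a, ha, h⟩
    · exact Or.inr ⟨a, ha, h⟩

theorem IsMask.mt {f : Fin 6 → ℕ} (hf : Function.Injective f) {P Q : Set (Fin 6)} {m n : ℕ}
    (hm : IsMask f P m) (hn : IsMask f Q n) :
    Words.Bits.mt m n = true ↔ (P ∩ Q).Nonempty := by
  rw [mt_iff]
  constructor
  · rintro ⟨i, h1, h2⟩
    obtain ⟨a, ha, h3⟩ := (hm i).1 h1
    obtain ⟨b, hb, h4⟩ := (hn i).1 h2
    have : a = b := hf (h3.trans h4.symm)
    subst this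
    exact ⟨a, ha, hb⟩
  · rintro ⟨a, ha, hb⟩
    exact ⟨f a, (hm _).2 ⟨a, ha, rfl⟩, (hn _).2 ⟨a, hb, rfl⟩⟩

theorem transport {M : Fin 6 → Fin 6 → Prop} {L : List ℕ} {f : Fin 6 → ℕ}
    (hf : Function.Injective f) (hL : ∀ a b, M a b → 2 ^ f a ||| 2 ^ f b ∈ L) (ht : TabL L) :
    TabM M := by
  classical
  obtain ⟨cmp, hc1, hc2⟩ := ht
  -- the code of a letter
  have hex : ∀ P : Set (Fin 6), ∃ i : ℕ, (∃ a b, M a b ∧ P = {a, b}) →
      i < L.length ∧ IsMask f P (L.getD i 0) := by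
    intro P
    by_cases hP : ∃ a b, M a b ∧ P = {a, b}
    · obtain ⟨a, b, hab, rfl⟩ := hP
      obtain ⟨i, hi, hi2⟩ := List.mem_iff_getElem.1 (hL a b hab)
      refine ⟨i, fun _ => ⟨hi, ?_⟩⟩
      have e : L.getD i 0 = 2 ^ f a ||| 2 ^ f b := by
        rw [List.getD_eq_getElem _ _ hi, hi2]
      rw [e]
      exact isMask_pair f a b
    · exact ⟨0, fun h => absurd h hP⟩
  choose en hen using hex
  -- the code of a word
  set w : (Fin 6 → Set (Fin 6)) → ℕ → ℕ := fun h j => if hj : j < 6 then en (h ⟨j, hj⟩) else 0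
    with hw
  have wval : ∀ (h : Fin 6 → Set (Fin 6)) (k : Fin 6), w h k.val = en (h k) := by
    intro h k
    simp only [hw]
    rw [dif_pos k.isLt]
  have hmask : ∀ {h : Fin 6 → Set (Fin 6)}, LegM M h → ∀ k : Fin 6, w h k.val < L.length ∧
      IsMask f (h k) (L.getD (w h k.val) 0) := by
    intro h hh k
    rw [wval]
    exact hen _ (hh.1 k)
  have hnb : ∀ {h : Fin 6 → Set (Fin 6)}, LegM M h → ∀ k : Fin 6,
      nb6 L (w h k.val) (w h (k + 1).val) = true := by
    intro h hh k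
    have h1 := hh.2 k
    cases h2 : nb6 L (w h k.val) (w h (k + 1).val) with
    | true => rfl
    | false =>
      exfalso
      have h3 : Words.Bits.mt (L.getD (w h k.val) 0) (L.getD (w h (k + 1).val) 0) = true := by
        unfold nb6 at h2
        cases h4 : Words.Bits.mt (L.getD (w h k.val) 0) (L.getD (w h (k + 1).val) 0) with
        | true => rfl
        | false => rw [h4] at h2; exact absurd h2 (by decide)
      rw [(hmask hh k).2.mt hf (hmask hh (k + 1)).2] at h3
      obtain ⟨a, ha, hb⟩ := h3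
      exact Set.disjoint_left.1 h1 ha hb
  have hleg : ∀ {h : Fin 6 → Set (Fin 6)}, LegM M h → Leg L.length 6 (cs6 L) (w h) := by
    intro h hh
    rw [leg6_iff]
    refine ⟨fun j hj => (hmask hh ⟨j, hj⟩).1, hnb hh 0, hnb hh 1, hnb hh 2, hnb hh 3, hnb hh 4, hnb hh 5⟩
  have hrot : ∀ h : Fin 6 → Set (Fin 6), rot 6 (w h) = w fun k => h (k + 1) := by
    intro h
    funext j
    by_cases hj : j < 6
    · obtain ⟨e0, e1, e2, e3, e4, e5⟩ := rot6_apply (w h)
      interval_cases j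
      · rw [e0]; rfl
      · rw [e1]; rfl
      · rw [e2]; rfl
      · rw [e3]; rfl
      · rw [e4]; rfl
      · rw [e5]; rfl
    · have e1 : rot 6 (w h) j = w h j := by
        unfold rot
        rw [rotH_apply, if_neg (by omega), if_neg (by omega)]
      rw [e1]
      simp only [hw]
      rw [dif_neg hj, dif_neg hj]
  have hupd : ∀ (h : Fin 6 → Set (Fin 6)) (k : Fin 6) (Q : Set (Fin 6)),
      w (Function.update h k Q) = Function.update (w h) k.val (en Q) := by
    intro h k Q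
    funext j
    by_cases hj : j = k.val
    · subst hj
      rw [Function.update_self, wval, Function.update_self]
    · rw [Function.update_of_ne hj]
      simp only [hw]
      by_cases hj6 : j < 6
      · rw [dif_pos hj6, dif_pos hj6, Function.update_of_ne]
        intro h1
        exact hj (congrArg Fin.val h1)
      · rw [dif_neg hj6, dif_neg hj6]
  refine ⟨fun h => cmp (w h), ?_, ?_⟩
  · intro h hh
    have := hc1 (w h) (hleg hh)
    rw [hrot] at this
    exact this
  · intro h k Q hh hQ hm1 hm2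
    have hQ' := hleg hQ
    have hQm := hmask hQ k
    rw [wval, Function.update_self] at hQm
    show cmp (w (Function.update h k Q)) = cmp (w h)
    rw [hupd] at hQ' ⊢
    refine hc2 (w h) k.val (en Q) k.isLt (hleg hh) hQ' ?_ ?_
    · rw [(hmask hh k).2.mt hf hQm.2]
      exact hm1
    · have hall : ∀ x : Fin 6, (x.val + 3) % 6 = (x + 3).val := by decide
      have e := hall k
      rw [e, (hmask hh (k + 3)).2.mt hf ((hmask hh k).2.union hQm.2)]
      exact hm2

theorem tri_card : ∀ c ∈ tri, (Finset.univ.filter fun i : Fin 6 => (c >>> i.val) &&& 1 = 1).card = 3 := by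
  decide

theorem vu_spec : ∀ c ∈ vu, ∃ v u : Fin 6, v ≠ u ∧ c = (v.val, u.val) := by decide

/-- **The table of a six-coloured centre.** -/
theorem k6_table {M : Fin 6 → Fin 6 → Prop} (hs : ∀ a b, M a b → M b a) (hi : ∀ a, ¬ M a a)
    (hd : ∀ a d, a ≠ d → ∃ j, j ≠ a ∧ j ≠ d ∧ ¬ M a j)
    (hK : ¬ ∃ A : Finset (Fin 6), A.card = 3 ∧ ∀ a ∈ A, ∀ b ∉ A, M a b) : TabM M := by
  have hinj := inj_all
  rw [Bool.and_eq_true, Bool.and_eq_true, Bool.and_eq_true, Bool.and_eq_true] at hinj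
  obtain ⟨⟨⟨⟨i1, i2⟩, i3⟩, i4⟩, i5⟩ := hinj
  rcases cover (h := wd M) (fun j _ => wd_lt M j) with h | h | h | h | h | h | h
  · exfalso
    obtain ⟨c, hc, h1⟩ := h
    obtain ⟨v, u, hvu, rfl⟩ := vu_spec c hc
    obtain ⟨j, h2, h3, h4⟩ := hd v u hvu
    exact h4 (badA_spec hs h1 h2 h3)
  · exfalso
    obtain ⟨c, hc, h1⟩ := h
    refine hK ⟨_, tri_card c hc, ?_⟩
    intro a ha b hb
    rw [Finset.mem_filter] at ha hb
    refine sepA_spec hs h1 ?_
    rw [ha.2]
    intro h2
    exact hb ⟨Finset.mem_univ _, h2.symm⟩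
  · obtain ⟨c, hc, h1⟩ := h
    exact transport (inj_of i1 hc) (fun a b hab => cA_spec hs hi h1 hab) Prism.table
  · obtain ⟨c, hc, h1⟩ := h
    exact transport (inj_of i2 hc) (fun a b hab => cA_spec hs hi h1 hab) K33m.table
  · obtain ⟨c, hc, h1⟩ := h
    exact transport (inj_of i3 hc) (fun a b hab => cA_spec hs hi h1 hab) K42.table
  · obtain ⟨c, hc, h1⟩ := h
    exact transport (inj_of i4 hc) (fun a b hab => cA_spec hs hi h1 hab) D22.table
  · obtain ⟨c, hc, h1⟩ := h
    exact transport (inj_of i5 hc) (fun a b hab => cA_spec hs hi h1 hab) D1.table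

end Vale.Agent.P032.Words6.H704
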